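import Vale.Agent.P180.R2.H589.Sp.Sh2
import Vale.Agent.P180.R2.H589.Sch.Cop

/-!
P180: central extensions of symplectic groups by groups of order prime to the characteristic.
-/

set_option linter.all false

namespace Vale.Agent.P180.R2.H589.Sp

open Subgroup Module
open LinearMap (BilinForm)
open Vale.Agent.P180.R2.H589.Sch

/-- The claim. -/
def CopS {K V : Type} [Field K] [AddCommGroup V] [Module K V] (p : ℕ) (B : BilinForm K V) : Prop :=
  ∀ (E : Type) [Group E] [Finite E] (f : E →* (V ≃ₗ[K] V)), (∀ g ∈ SpG B, ∃ y, f y = g) →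
    (∀ e, f e ∈ SpG B) → f.ker ≤ center E → ¬ p ∣ Nat.card f.ker →
    closure {x : E | Pel p x} = ⊤ → f.ker = ⊥

section Two

variable {K : Type} [Field K] [Finite K] {p : ℕ} [Fact p.Prime] [CharP K p]
  {W : Type} [AddCommGroup W] [Module K W]

/-- the plane -/
def e2 (W : Type) [AddCommGroup W] [Module K W] [Subsingleton W] :
    (Fin 2 → K) ≃ₗ[K] (K × W × K) where
  toFun v := (v 0, 0, v 1)
  map_add' := by
    intro v w
    exact Prod.ext rfl (Prod.ext (add_zero 0).symm rfl)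
  map_smul' := by
    intro c v
    exact Prod.ext rfl (Prod.ext (smul_zero c).symm rfl)
  invFun u := ![u.1, u.2.2]
  left_inv := by
    intro v
    funext i
    fin_cases i <;> rfl
  right_inv := by
    intro u
    exact Prod.ext rfl (Prod.ext (Subsingleton.elim _ _) rfl)

theorem e2_apply [Subsingleton W] (v : Fin 2 → K) :
    e2 W v = ((v 0, 0, v 1) : K × W × K) := rfl

theorem mul_two (A : Matrix (Fin 2) (Fin 2) K) (v : Fin 2 → K) (i : Fin 2) :
    (A.mulVec v) i = A i 0 * v 0 + A i 1 * v 1 := by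
  rw [Matrix.mulVec, dotProduct, Fin.sum_univ_two]

/-- `SL(2, K)` as a symplectic group -/
def th (W : Type) [AddCommGroup W] [Module K W] [Subsingleton W] :
    GS 2 K →* ((K × W × K) ≃ₗ[K] (K × W × K)) :=
  (cj (e2 W)).toMonoidHom.comp (nat 2 K)

theorem th_inj [Subsingleton W] : Function.Injective (th (K := K) W) := by
  intro A A' h
  exact nat_injective ((cj (e2 (K := K) W)).injective h)

theorem form_two [Subsingleton W] (B : BilinForm K W) (v w : Fin 2 → K) :
    hyp B (e2 W v) (e2 W w) = v 0 * w 1 - v 1 * w 0 := by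
  rw [hyp_apply, e2_apply, e2_apply]
  simp

theorem th_mem [Subsingleton W] (B : BilinForm K W) (A : GS 2 K) : th W A ∈ SpG (hyp B) := by
  intro u u'
  obtain ⟨v, rfl⟩ := (e2 (K := K) W).surjective u
  obtain ⟨w, rfl⟩ := (e2 (K := K) W).surjective u'
  have h1 : ∀ v, th W A (e2 W v) = e2 W (nat 2 K A v) := by
    intro v
    change cj (e2 W) (nat 2 K A) (e2 W v) = _
    rw [cj_apply, LinearEquiv.symm_apply_apply]
  rw [h1, h1, form_two, form_two, nat_apply, nat_apply, mul_two, mul_two, mul_two, mul_two]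
  have h2 := A.2
  rw [Matrix.det_fin_two] at h2
  linear_combination (v 0 * w 1 - v 1 * w 0) * h2

theorem th_surj [Subsingleton W] {B : BilinForm K W} {g : (K × W × K) ≃ₗ[K] (K × W × K)}
    (hg : g ∈ SpG (hyp B)) : ∃ A, th W A = g := by
  let g' : (Fin 2 → K) ≃ₗ[K] (Fin 2 → K) := (cj (e2 W)).symm g
  have hg' : ∀ v, e2 W (g' v) = g (e2 W v) := by
    intro v
    change e2 W ((cj (e2 W)).symm g v) = _
    rw [cj_symm_apply, LinearEquiv.apply_symm_apply]
  let M : Matrix (Fin 2) (Fin 2) K := LinearMap.toMatrix' g'.toLinearMap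
  have hM : ∀ v, M.mulVec v = g' v := fun v => by
    rw [LinearMap.toMatrix'_mulVec]
    rfl
  have hdet : M.det = 1 := by
    have h1 := mem_SpG.mp hg (e2 W ![1, 0]) (e2 W ![0, 1])
    rw [← hg', ← hg', form_two, form_two, ← hM, ← hM, mul_two, mul_two, mul_two, mul_two] at h1
    rw [Matrix.det_fin_two]
    simp only [Matrix.cons_val_zero, Matrix.cons_val_one] at h1
    linear_combination h1
  let A : GS 2 K := ⟨M, hdet⟩
  have hA : ∀ v, nat 2 K A v = g' v := hM
  refine ⟨A, ?_⟩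
  apply LinearEquiv.ext
  intro u
  obtain ⟨v, rfl⟩ := (e2 (K := K) W).surjective u
  change cj (e2 W) (nat 2 K A) (e2 W v) = _
  rw [cj_apply, LinearEquiv.symm_apply_apply, hA, hg']

theorem copS_two [Subsingleton W] (hq : 4 < Nat.card K) (B : BilinForm K W) :
    CopS p (hyp B) := by
  intro E _ _ f hr hfB hk hp hgen
  let r : GS 2 K ≃* (th (K := K) W).range := MonoidHom.ofInjective th_inj
  have hrange : ∀ e, f e ∈ (th (K := K) W).range := fun e => by
    obtain ⟨A, hA⟩ := th_surj (hfB e)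
    exact ⟨A, hA⟩
  let f₁ : E →* (th (K := K) W).range := f.codRestrict _ hrange
  let f' : E →* GS 2 K := r.symm.toMonoidHom.comp f₁
  have hf' : ∀ e, th W (f' e) = f e := by
    intro e
    have h1 : r (f' e) = f₁ e := r.apply_symm_apply _
    exact congrArg Subtype.val h1
  have hker : f'.ker = f.ker := by
    ext x
    rw [MonoidHom.mem_ker, MonoidHom.mem_ker, ← hf']
    constructor
    · intro h; rw [h, map_one]
    · intro h
      exact th_inj (by rw [h, map_one])
  rw [← hker]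
  refine copClaim_two (p := p) hq E f' ?_ (by rw [hker]; exact hk) (by rw [hker]; exact hp) hgen
  intro A
  obtain ⟨y, hy⟩ := hr _ (th_mem B A)
  exact ⟨y, th_inj (by rw [hf', hy])⟩

end Two

section Step

variable {K : Type} [Field K] {p : ℕ}
  {W : Type} [AddCommGroup W] [Module K W] {B : BilinForm K W} (hB : Sy B)

include hB

theorem qq_isH (y : W) (c : K) : IsH (hyp B) (qq B y c) (oo K W) (0, -y, 0) (-c) := by
  constructor
  · rw [hyp_apply]
    change (1 : K) * 0 - 0 * 0 + B 0 (-y) = 0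
    rw [map_zero, LinearMap.zero_apply]
    ring
  · intro x
    have h1 : hyp B x (oo K W) = - x.2.2 := by
      rw [hyp_apply]
      change x.1 * 0 - x.2.2 * 1 + B x.2.1 0 = _
      rw [map_zero]
      ring
    have h2 : hyp B x ((0, -y, 0) : K × W × K) = - B x.2.1 y := by
      rw [hyp_apply]
      change x.1 * 0 - x.2.2 * 0 + B x.2.1 (-y) = _
      rw [map_neg]
      ring
    rw [h1, h2, qq_apply]
    refine Prod.ext ?_ (Prod.ext ?_ ?_)
    · change x.1 - B x.2.1 y + c * x.2.2 =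
        x.1 + -x.2.2 * 0 + (-B x.2.1 y) * 1 + (-c * -x.2.2) * 1
      ring
    · change x.2.1 + x.2.2 • y =
        x.2.1 + (-x.2.2) • (-y) + (-B x.2.1 y) • (0 : W) + (-c * -x.2.2) • (0 : W)
      module
    · change x.2.2 = x.2.2 + -x.2.2 * 0 + (-B x.2.1 y) * 0 + (-c * -x.2.2) * 0
      ring

theorem qq_pel [CharP K p] (y : W) (c : K) : Pel p (qq B y c) := by
  obtain ⟨n, hn⟩ := isPGroup_RA (hyp_sy hB) p (oo K W) ⟨_, _, _, qq_isH hB y c⟩
  exact ⟨n, congrArg Subtype.val hn⟩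

omit hB in
theorem fix_St {g : (K × W × K) ≃ₗ[K] (K × W × K)} (hg : g ∈ SpG (hyp B))
    (hfix : g (oo K W) = oo K W) : ∃ h : g ∈ StS B, lam B ⟨g, h⟩ = 1 := by
  refine ⟨⟨hg, 1, by rw [hfix, one_smul]⟩, ?_⟩
  apply Units.ext
  rw [lam_val]
  change (g (oo K W)).1 = 1
  rw [hfix]
  rfl

theorem RA_fix {e : (K × W × K) ≃ₗ[K] (K × W × K)} (he : e ∈ RA (hyp_sy hB) (oo K W)) :
    ∃ h : e ∈ StS B, bl B ⟨e, h⟩ = 1 := by
  obtain ⟨b, c, h0, h1⟩ := he
  have h2 : e (oo K W) = oo K W := by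
    rw [h1, (hyp_sy hB).alt, h0]
    module
  obtain ⟨h3, -⟩ := fix_St (isH_mem (hyp_sy hB) ⟨h0, h1⟩) h2
  refine ⟨h3, Subtype.ext (LinearEquiv.ext fun x => ?_)⟩
  rw [bl_apply]
  change (e (0, x, 0)).2.1 = x
  rw [h1]
  have h4 : hyp B ((0, x, 0) : K × W × K) (oo K W) = 0 := by
    rw [hyp_apply]
    change (0 : K) * 0 - 0 * 1 + B x 0 = 0
    rw [map_zero]
    ring
  rw [h4]
  change x + (0 : K) • b.2.1 + _ • (0 : W) + _ • (0 : W) = x
  rw [zero_smul, smul_zero, smul_zero, add_zero, add_zero, add_zero]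

theorem RA_conj {e g : (K × W × K) ≃ₗ[K] (K × W × K)} (he : e ∈ RA (hyp_sy hB) (oo K W))
    (hg : g ∈ SpG (hyp B)) (hfix : g (oo K W) = oo K W) :
    g * e * g⁻¹ ∈ RA (hyp_sy hB) (oo K W) := by
  obtain ⟨b, c, h⟩ := he
  have h1 := h.conj (hyp_sy hB) hg
  rw [hfix] at h1
  exact ⟨_, _, h1⟩

variable [Finite K] [Fact p.Prime] [CharP K p] [Module.Finite K W]
  {E : Type} [Group E] [Finite E] {f : E →* ((K × W × K) ≃ₗ[K] (K × W × K))}
  (hr : ∀ g ∈ SpG (hyp B), ∃ y, f y = g) (hfB : ∀ e, f e ∈ SpG (hyp B))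
  (hk : f.ker ≤ center E) (hp : ¬ p ∣ Nat.card f.ker)

include hr hp

theorem lift_block (hK : 2 < Nat.card K) {m : W ≃ₗ[K] W} (hm : m ∈ SpG B) :
    ∃ q ∈ Pv f p (oo K W), f q = lv m 1 := by
  rw [SpG_eq_TG hK hB] at hm
  unfold TG at hm
  induction hm using closure_induction with
  | mem m hm =>
    obtain ⟨a, c, rfl⟩ := hm
    obtain ⟨q, hq, hfq⟩ := exists_pel (f := f) (p := p) hp
      (tS_pel (hyp_sy hB) ((0, a, 0) : K × W × K) c) (hr _ (tS_mem _ _ _))
    refine ⟨q, subset_closure ⟨hq, ?_⟩, by rw [hfq, lv_tS hB]⟩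
    rw [hfq, ← lv_tS hB, lv_apply]
    refine Prod.ext ?_ (Prod.ext ?_ ?_)
    · change ((1 : Kˣ) : K) * 1 = 1
      rw [Units.val_one, mul_one]
    · exact map_zero _
    · exact mul_zero _
  | one => exact ⟨1, Subgroup.one_mem _, by rw [map_one, lv_one]⟩
  | mul m m' _ _ h h' =>
    obtain ⟨q, hq, hfq⟩ := h
    obtain ⟨q', hq', hfq'⟩ := h'
    exact ⟨q * q', Subgroup.mul_mem _ hq hq', by rw [map_mul, hfq, hfq', lv_mul, one_mul]⟩
  | inv m _ h =>
    obtain ⟨q, hq, hfq⟩ := h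
    exact ⟨q⁻¹, Subgroup.inv_mem _ hq, by rw [map_inv, hfq, lv_inv, inv_one]⟩

theorem lift_rad (y : W) (c : K) : ∃ q ∈ Pv f p (oo K W), Pel p q ∧ f q = qq B y c := by
  obtain ⟨q, hq, hfq⟩ := exists_pel (f := f) (p := p) hp (qq_pel hB y c) (hr _ (qq_mem hB y c))
  refine ⟨q, subset_closure ⟨hq, ?_⟩, hq, hfq⟩
  obtain ⟨h1, h2⟩ := RA_fix hB ⟨_, _, qq_isH hB y c⟩
  have h3 := lam_spec (⟨qq B y c, h1⟩ : StS B)
  rw [lam_qq hB y c, Units.val_one, one_smul] at h3
  rw [hfq]
  exact h3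

include hfB in
theorem stabS (hK : 2 < Nat.card K) {x : E} (hx : f x (oo K W) = oo K W) :
    ∃ q ∈ Pv f p (oo K W), ∃ a ∈ f.ker, x = q * a := by
  obtain ⟨h1, h2⟩ := fix_St (hfB x) hx
  obtain ⟨y, c, h3⟩ := exists_decomp hB ⟨f x, h1⟩
  rw [h2] at h3
  obtain ⟨q₁, hq₁, e₁⟩ := lift_block hB hr hp hK (bl B ⟨f x, h1⟩).2
  obtain ⟨q₂, hq₂, -, e₂⟩ := lift_rad hB hr hp y c
  refine ⟨q₁ * q₂, Subgroup.mul_mem _ hq₁ hq₂, (q₁ * q₂)⁻¹ * x, ?_, by group⟩
  rw [MonoidHom.mem_ker, map_mul, map_inv, map_mul, e₁, e₂, ← h3]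
  exact inv_mul_cancel _

include hfB hk in
theorem botS (hK : 2 < Nat.card K) (ih : CopS p B) {x : E} (hx : x ∈ Pv f p (oo K W))
    (hfx : f x = 1) : x = 1 := by
  obtain ⟨P, hP⟩ : ∃ P, P = Pv f p (oo K W) := ⟨_, rfl⟩
  rw [← hP] at hx
  have hPfix : ∀ y ∈ P, f y (oo K W) = oo K W := fun y hy => by
    rw [hP] at hy
    exact pv_fix hy
  have hPst : ∀ y ∈ P, f y ∈ StS B := fun y hy => (fix_St (hfB y) (hPfix y hy)).1
  let g : P →* StS B := (f.comp P.subtype).codRestrict (StS B) fun y => hPst y y.2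
  let f' : P →* (W ≃ₗ[K] W) := (SpG B).subtype.comp ((bl B).comp g)
  let N : Subgroup P :=
    { carrier := {y | Pel p (y : E) ∧ f y ∈ RA (hyp_sy hB) (oo K W)}
      one_mem' := ⟨pel_one, by
        change f 1 ∈ RA (hyp_sy hB) (oo K W)
        rw [map_one]; exact Subgroup.one_mem _⟩
      mul_mem' := by
        rintro y z ⟨h1, h2⟩ ⟨h3, h4⟩
        refine ⟨pel_mul hk hp (isPGroup_RA (hyp_sy hB) p (oo K W)) h1 h3 h2 h4, ?_⟩
        change f ((y : E) * z) ∈ RA (hyp_sy hB) (oo K W)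
        rw [map_mul]
        exact Subgroup.mul_mem _ h2 h4
      inv_mem' := by
        rintro y ⟨h1, h2⟩
        refine ⟨h1.inv, ?_⟩
        change f (y : E)⁻¹ ∈ RA (hyp_sy hB) (oo K W)
        rw [map_inv]
        exact Subgroup.inv_mem _ h2 }
  have hN : N.Normal := by
    refine ⟨?_⟩
    rintro y ⟨h1, h2⟩ z
    refine ⟨h1.conj (z : E), ?_⟩
    change f ((z : E) * y * (z : E)⁻¹) ∈ RA (hyp_sy hB) (oo K W)
    rw [map_mul, map_mul, map_inv]
    exact RA_conj hB h2 (hfB z) (hPfix z z.2)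
  have hNk : N ≤ f'.ker := by
    rintro y ⟨_, h2⟩
    obtain ⟨h3, h4⟩ := RA_fix hB h2
    exact congrArg Subtype.val h4
  let F : P ⧸ N →* (W ≃ₗ[K] W) := QuotientGroup.lift N f' hNk
  have hF : ∀ y : P, F (QuotientGroup.mk' N y) = f' y := fun y => rfl
  have hFs : ∀ m ∈ SpG B, ∃ w, F w = m := by
    intro m hm
    obtain ⟨q, hq, hfq⟩ := lift_block hB hr hp hK hm
    rw [← hP] at hq
    refine ⟨QuotientGroup.mk' N ⟨q, hq⟩, ?_⟩
    rw [hF]
    have h1 : g ⟨q, hq⟩ = ⟨lv m 1, lv_St hB hm 1⟩ := Subtype.ext hfq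
    change ((bl B (g ⟨q, hq⟩) : SpG B) : W ≃ₗ[K] W) = m
    rw [h1]
    rfl
  have hFB : ∀ w, F w ∈ SpG B := by
    intro w
    obtain ⟨y, rfl⟩ := QuotientGroup.mk'_surjective N w
    exact (bl B (g y)).2
  -- elements of the kernel
  have hker : ∀ y : P, f' y = 1 → ∃ a : P, f (a : E) = 1 ∧
      QuotientGroup.mk' N y = QuotientGroup.mk' N a := by
    intro y hy
    obtain ⟨h1, h2⟩ := fix_St (hfB y) (hPfix y y.2)
    have hbl : bl B ⟨f y, h1⟩ = 1 := Subtype.ext hy
    obtain ⟨y', c, h3⟩ := exists_qq hB hbl h2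
    obtain ⟨z, hzP, hz, hfz⟩ := lift_rad hB hr hp y' c
    rw [← hP] at hzP
    have hfz' : f z = f y := by rw [hfz]; exact h3.symm
    refine ⟨⟨z, hzP⟩⁻¹ * y, ?_, ?_⟩
    · change f (z⁻¹ * y) = 1
      rw [map_mul, map_inv, hfz', inv_mul_cancel]
    · have hzN : (⟨z, hzP⟩ : P) ∈ N := by
        refine ⟨hz, ?_⟩
        change f z ∈ RA (hyp_sy hB) (oo K W)
        rw [hfz]
        exact ⟨_, _, qq_isH hB y' c⟩
      have h5 : QuotientGroup.mk' N ⟨z, hzP⟩ = 1 := (QuotientGroup.eq_one_iff _).mpr hzN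
      rw [map_mul, map_inv, h5, inv_one, one_mul]
  have hFk : F.ker ≤ center (P ⧸ N) := by
    intro w hw
    obtain ⟨y, rfl⟩ := QuotientGroup.mk'_surjective N w
    obtain ⟨a, ha, hya⟩ := hker y hw
    rw [hya, mem_center_iff]
    intro v
    obtain ⟨v, rfl⟩ := QuotientGroup.mk'_surjective N v
    rw [← map_mul, ← map_mul]
    congr 1
    exact Subtype.ext (mem_center_iff.mp (hk (MonoidHom.mem_ker.mpr ha)) v)
  have hFp : ¬ p ∣ Nat.card F.ker := by
    intro hd
    obtain ⟨w, hw⟩ := exists_prime_orderOf_dvd_card' p hd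
    obtain ⟨y, hy⟩ := QuotientGroup.mk'_surjective N (w : P ⧸ N)
    obtain ⟨a, ha, hya⟩ := hker y (by rw [← hF, hy]; exact w.2)
    have h1 : (QuotientGroup.mk' N a) ^ p = 1 := by
      rw [← hya, hy]
      have : w ^ p = 1 := by rw [← hw]; exact pow_orderOf_eq_one w
      exact congrArg Subtype.val this
    rw [← map_pow] at h1
    have h2 : a ^ p ∈ N := (QuotientGroup.eq_one_iff _).mp h1
    have h3 : Pel p (a : E) := by
      obtain ⟨m, hm⟩ := h2.1
      refine ⟨m + 1, ?_⟩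
      rw [pow_succ', pow_mul]
      exact hm
    have h4 : (a : E) = 1 := eq_one_of_pel_of_mem hp (MonoidHom.mem_ker.mpr ha) h3
    have h5 : a = 1 := Subtype.ext h4
    rw [h5, map_one] at hya
    have h6 : w = 1 := Subtype.ext (by rw [← hy, hya]; rfl)
    rw [h6, orderOf_one] at hw
    exact (Fact.out : p.Prime).one_lt.ne hw
  have hFgen : closure {w : P ⧸ N | Pel p w} = ⊤ := by
    rw [eq_top_iff]
    rintro w -
    obtain ⟨⟨y, hy⟩, rfl⟩ := QuotientGroup.mk'_surjective N w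
    have key : ∀ (y : E) (hy : y ∈ closure {x | Pel p x ∧ f x (oo K W) = oo K W})
        (hyP : y ∈ P), QuotientGroup.mk' N ⟨y, hyP⟩ ∈ closure {w : P ⧸ N | Pel p w} := by
      intro y hy
      induction hy using closure_induction with
      | mem x hx =>
        intro hxP
        refine subset_closure ?_
        obtain ⟨m, hm⟩ := hx.1
        refine ⟨m, ?_⟩
        rw [← map_pow, ← map_one (QuotientGroup.mk' N)]
        congr 1
        exact Subtype.ext hm
      | one =>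
        intro hxP
        have : (⟨1, hxP⟩ : P) = 1 := rfl
        rw [this, map_one]
        exact Subgroup.one_mem _
      | mul x y hx hy ihx ihy =>
        intro hxP
        have hxP' : x ∈ P := by rw [hP]; exact hx
        have hyP' : y ∈ P := by rw [hP]; exact hy
        have : (⟨x * y, hxP⟩ : P) = ⟨x, hxP'⟩ * ⟨y, hyP'⟩ := rfl
        rw [this, map_mul]
        exact Subgroup.mul_mem _ (ihx hxP') (ihy hyP')
      | inv x hx ihx =>
        intro hxP
        have hxP' : x ∈ P := by rw [hP]; exact hx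
        have : (⟨x⁻¹, hxP⟩ : P) = ⟨x, hxP'⟩⁻¹ := rfl
        rw [this, map_inv]
        exact Subgroup.inv_mem _ (ihx hxP')
    exact key y (by rw [hP] at hy; exact hy) hy
  have hbot := ih (P ⧸ N) F hFs hFB hFk hFp hFgen
  have h1 : QuotientGroup.mk' N ⟨x, hx⟩ ∈ F.ker := by
    rw [MonoidHom.mem_ker, hF]
    have h2 : g ⟨x, hx⟩ = 1 := Subtype.ext hfx
    change ((bl B (g ⟨x, hx⟩) : SpG B) : W ≃ₗ[K] W) = 1
    rw [h2, map_one]
    rfl
  rw [hbot, mem_bot] at h1
  have h2 : (⟨x, hx⟩ : P) ∈ N := (QuotientGroup.eq_one_iff _).mp h1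
  exact eq_one_of_pel_of_mem hp (MonoidHom.mem_ker.mpr hfx) h2.1

end Step

section Main

variable {K : Type} [Field K] [Finite K] {p : ℕ} [Fact p.Prime] [CharP K p]

/-- **Central extensions of symplectic groups by groups of order prime to the characteristic.** -/
theorem copS (hq : 8 < Nat.card K) {V : Type} [AddCommGroup V] [Module K V] [Module.Finite K V]
    {B : BilinForm K V} (hB : Sy B) (h2 : 2 ≤ finrank K V) : CopS p B := by
  refine sp_ind (K := K) (fun V _ _ B => 2 ≤ finrank K V → CopS p B) ?_ ?_ ?_ V B hB h2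
  · intro V _ _ B hV hd
    have := Module.finrank_zero_of_subsingleton (R := K) (M := V)
    omega
  · intro W _ _ _ B hB ih hd
    by_cases hW : Subsingleton W
    · exact copS_two (by omega) B
    · have h1 : 1 ≤ finrank K W := by
        rw [Nat.one_le_iff_ne_zero]
        intro h
        exact hW (Module.finrank_zero_iff.mp h)
      -- the dimension of `W` is at least two
      have h2 : 2 ≤ finrank K W := by
        by_contra hlt
        have h3 : finrank K W = 1 := by omega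
        obtain ⟨v, hv0, hv⟩ := finrank_eq_one_iff'.mp h3
        obtain ⟨y, hy⟩ := hB.exists_ne hv0
        obtain ⟨c, rfl⟩ := hv y
        exact hy (by rw [map_smul, hB.alt, smul_zero])
      intro E _ _ f hr hfB hk hp hgen
      refine sheetsS (hyp_sy hB) hk hp hr ?_ hq hfB hgen (oo_ne (K := K) (W := W)) ?_ ?_
      · rw [Module.finrank_prod, Module.finrank_prod, Module.finrank_self]
        omega
      · intro x hx
        exact stabS hB hr hfB hp (by omega) hx
      · intro x hx hfx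
        exact botS hB hr hfB hk hp (by omega) (ih h2) hx hfx
  · intro V V' _ _ _ _ B B' e he ih hd E _ _ f hr hfB hk hp hgen
    have h1 : 2 ≤ finrank K V := by rw [e.finrank_eq]; exact hd
    have hker : ((cj e).symm.toMonoidHom.comp f).ker = f.ker := by
      ext x
      rw [MonoidHom.mem_ker, MonoidHom.mem_ker]
      exact MulEquiv.map_eq_one_iff (cj e).symm
    have h3 := ih h1 E ((cj e).symm.toMonoidHom.comp f) (fun g hg => by
        obtain ⟨y, hy⟩ := hr (cj e g) ((cj_mem he).mpr hg)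
        refine ⟨y, ?_⟩
        change (cj e).symm (f y) = g
        rw [hy, MulEquiv.symm_apply_apply]) (fun x => by
        change (cj e).symm (f x) ∈ SpG B
        rw [← cj_mem he, MulEquiv.apply_symm_apply]
        exact hfB x) (by rw [hker]; exact hk) (by rw [hker]; exact hp) hgen
    rwa [hker] at h3

end Main

end Vale.Agent.P180.R2.H589.Sp
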