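import Vale.Agent.P180.R2.H589.Sp.Chr
import Vale.Agent.P180.R2.H589.Sp.Cop
import Vale.Agent.P180.R2.H259.Schur.Main

/-!
P180: finite perfect groups `L` with `L/Z(L) ≅ PSp(V)`, `|K| > 9`, are quotients of `Sp(V)`.
-/

set_option linter.all false

namespace Vale.Agent.P180.R2.H589.Sp

open Subgroup Module
open LinearMap (BilinForm)
open Vale.Agent.P180.R2.H589.Sch
open scoped commutatorElement

variable {K : Type} [Field K] [Finite K] {V : Type} [AddCommGroup V] [Module K V]
  [Module.Finite K V] {B : BilinForm K V} (hB : Sy B)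

include hB

/-- **A finite perfect central extension of `Sp(V)` is trivial.** -/
theorem sp_injective (hd : 2 ≤ finrank K V) (hK : 9 < Nat.card K) {E : Type} [Group E] [Finite E]
    (hperf : commutator E = ⊤) (f : E →* SpG B)
    (hf : Function.Surjective f) (hk : f.ker ≤ center E) : Function.Injective f := by
  haveI hp : Fact (ringChar K).Prime := ⟨CharP.char_is_prime K (ringChar K)⟩
  obtain ⟨p, hpdef⟩ : ∃ p, p = ringChar K := ⟨_, rfl⟩
  rw [← hpdef] at hp
  haveI : CharP K p := by rw [hpdef]; exact ringChar.charP K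
  -- the kernel has order prime to `p`
  have h1 : ¬ p ∣ Nat.card f.ker := by
    intro hdv
    obtain ⟨w, hw⟩ := exists_prime_orderOf_dvd_card' p hdv
    have h2 : (w : E) = 1 := by
      refine (SM_SpG (p := p) hK hB).apply_perfect f hf hk hperf w.2 ⟨1, ?_⟩
      have h3 : w ^ p = 1 := by rw [← hw]; exact pow_orderOf_eq_one w
      rw [pow_one]
      exact congrArg Subtype.val h3
    have h3 : w = 1 := Subtype.ext h2
    rw [h3, orderOf_one] at hw
    exact hp.out.one_lt.ne hw
  -- `E` is generated by the `p`-elements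
  obtain ⟨H, hH⟩ : ∃ H : Subgroup E, H = closure {x : E | Pel p x} := ⟨_, rfl⟩
  have h2 : H.map f = ⊤ := by
    rw [eq_top_iff]
    rintro ⟨g, hg⟩ -
    have h3 : TG hB ≤ (H.map f).map (SpG B).subtype := by
      rw [TG, closure_le]
      rintro _ ⟨a, c, rfl⟩
      obtain ⟨q, hq, hfq⟩ := exists_pel (f := f) (p := p) h1 (g := ⟨tS hB a c, tS_mem hB a c⟩) (by
        obtain ⟨n, hn⟩ := tS_pel (p := p) hB a c
        exact ⟨n, Subtype.ext hn⟩) (hf _)
      refine ⟨f q, ⟨q, ?_, rfl⟩, congrArg Subtype.val hfq⟩
      rw [hH]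
      exact subset_closure hq
    have h4 : g ∈ TG hB := by rw [← SpG_eq_TG (by omega) hB]; exact hg
    obtain ⟨y, hy, hyg⟩ := h3 h4
    have h5 : y = ⟨g, hg⟩ := Subtype.ext hyg
    rw [← h5]
    exact hy
  have h3 : H = ⊤ := by
    have h4 : commutator E ≤ ⁅H, H⁆ := by
      rw [commutator_def, commutator_le]
      intro x _ y _
      obtain ⟨x', hx', hxx⟩ : f x ∈ H.map f := by rw [h2]; exact mem_top _
      obtain ⟨y', hy', hyy⟩ : f y ∈ H.map f := by rw [h2]; exact mem_top _
      rw [comm_congr hk hxx.symm hyy.symm]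
      exact commutator_mem_commutator hx' hy'
    have h5 : ⁅H, H⁆ ≤ H := by
      rw [commutator_le]
      intro x hx y hy
      rw [commutatorElement_def]
      exact mul_mem (mul_mem (mul_mem hx hy) (inv_mem hx)) (inv_mem hy)
    rw [eq_top_iff, ← hperf]
    exact h4.trans h5
  -- the kernel is trivial
  have hker : ((SpG B).subtype.comp f).ker = f.ker := by
    ext x
    rw [MonoidHom.mem_ker, MonoidHom.mem_ker]
    constructor
    · intro h
      exact Subtype.ext h
    · intro h
      change ((f x : SpG B) : V ≃ₗ[K] V) = 1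
      rw [h]
      rfl
  rw [← MonoidHom.ker_eq_bot_iff, ← hker]
  refine copS (p := p) (by omega) hB hd E ((SpG B).subtype.comp f) (fun g hg => ?_)
    (fun x => (f x).2) (by rw [hker]; exact hk) (by rw [hker]; exact h1) (by rw [← hH]; exact h3)
  obtain ⟨y, hy⟩ := hf ⟨g, hg⟩
  exact ⟨y, congrArg Subtype.val hy⟩

theorem det_SpG (hK : 2 < Nat.card K) {g : V ≃ₗ[K] V} (hg : g ∈ SpG B) :
    LinearEquiv.det g = 1 := by
  rw [SpG_eq_TG hK hB] at hg
  unfold TG at hg
  induction hg using closure_induction with
  | mem g hg =>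
    obtain ⟨a, c, rfl⟩ := hg
    exact LinearEquiv.transvection.det_eq_one (hB.flip_self a c)
  | one => rw [map_one]
  | mul g h _ _ hg hh => rw [map_mul, hg, hh, one_mul]
  | inv g _ hg => rw [map_inv, hg, inv_one]

/-- the two models -/
theorem exists_equivSL (hK : 2 < Nat.card K) {X : Subgroup (SpecialLinearGroup K V)}
    (hX : ∀ g : SpecialLinearGroup K V, g ∈ X ↔ ∀ x y, B (g x) (g y) = B x y) :
    ∃ e : SpG B ≃* X, ∀ (g : SpG B) (v : V),
      ((e g : X) : SpecialLinearGroup K V) v = (g : V ≃ₗ[K] V) v := by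
  refine ⟨{ toFun := fun g => ⟨⟨(g : V ≃ₗ[K] V), det_SpG hB hK g.2⟩, (hX _).mpr g.2⟩
            invFun := fun x => ⟨((x : SpecialLinearGroup K V) : V ≃ₗ[K] V), (hX _).mp x.2⟩
            left_inv := fun g => rfl
            right_inv := fun x => rfl
            map_mul' := fun g h => rfl }, fun g v => rfl⟩

/-- **Finite perfect groups `L` with `L/Z(L) ≅ PSp(V)`** are quotients of `Sp(V)` by central
subgroups. -/
theorem exists_surj_sp (hd : 2 ≤ finrank K V) (hK : 9 < Nat.card K)
    {X : Subgroup (SpecialLinearGroup K V)}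
    (hX : ∀ g : SpecialLinearGroup K V, g ∈ X ↔ ∀ x y, B (g x) (g y) = B x y)
    {L : Type} [Group L] [Finite L] (hL : commutator L = ⊤)
    (e : L ⧸ center L ≃* X ⧸ center X) :
    ∃ π : X →* L, Function.Surjective π ∧ π.ker ≤ center X := by
  haveI : Finite V := Module.finite_of_finite K
  haveI : Finite (V ≃ₗ[K] V) := finite_gl
  obtain ⟨ε, -⟩ := exists_equivSL hB (by omega) hX
  haveI : Finite X := Finite.of_equiv _ ε.toEquiv
  have hperf : commutator X = ⊤ := by
    have h1 := SpG_perfect' (by omega : 3 < Nat.card K) hB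
    have h2 : (commutator (SpG B)).map ε.toMonoidHom = ⊤ := by
      rw [h1, ← MonoidHom.range_eq_map, MonoidHom.range_eq_top]
      exact ε.surjective
    rw [eq_top_iff, ← h2, commutator_def, map_commutator, commutator_def]
    exact commutator_mono le_top le_top
  refine H259.Schur.exists_surj_of_injective hperf hL (fun E π h1 h2 h3 => ?_) e
  have h4 := sp_injective hB hd hK h1 (ε.symm.toMonoidHom.comp π) (ε.symm.surjective.comp h2)
    (fun x hx => h3 (by
      have h5 : ε.symm (π x) = 1 := hx
      rw [MonoidHom.mem_ker]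
      exact (MulEquiv.map_eq_one_iff ε.symm).mp h5))
  intro x y hxy
  apply h4
  change ε.symm (π x) = ε.symm (π y)
  rw [hxy]

end Vale.Agent.P180.R2.H589.Sp

namespace Vale.Agent.P180.R2.H589.Sp

open Subgroup Module
open LinearMap (BilinForm)
open Vale.Agent.P180.R2.H589.Sch
open scoped commutatorElement

/-- the centre of `L/Z(L)` is trivial if `L` is perfect -/
theorem center_quot_trivial {L : Type*} [Group L] (hL : commutator L = ⊤)
    {t : L ⧸ center L} (ht : t ∈ center (L ⧸ center L)) : t = 1 := by
  obtain ⟨x, rfl⟩ := QuotientGroup.mk'_surjective (center L) t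
  refine (QuotientGroup.eq_one_iff x).mpr ?_
  -- `y ↦ [x, y]` is a homomorphism into the centre
  have hz : ∀ y, ⁅x, y⁆ ∈ center L := by
    intro y
    refine (QuotientGroup.eq_one_iff _).mp ?_
    have h1 := mem_center_iff.mp ht (QuotientGroup.mk' (center L) y)
    change QuotientGroup.mk' (center L) ⁅x, y⁆ = 1
    rw [map_commutatorElement, commutatorElement_eq_one_iff_mul_comm]
    exact h1.symm
  let F : L →* center L :=
    { toFun := fun y => ⟨⁅x, y⁆, hz y⟩
      map_one' := Subtype.ext (commutatorElement_one_right x)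
      map_mul' := fun y z => Subtype.ext (comm_mul_right_of (hz z)) }
  have h2 : commutator L ≤ F.ker := by
    rw [commutator_def, commutator_le]
    intro y _ z _
    rw [MonoidHom.mem_ker, map_commutatorElement, commutatorElement_eq_one_iff_mul_comm]
    exact Subtype.ext (mem_center_iff.mp (F z).2 (F y))
  rw [mem_center_iff]
  intro y
  have h3 : y ∈ F.ker := h2 (by rw [hL]; exact mem_top y)
  have h4 : ⁅x, y⁆ = 1 := congrArg Subtype.val (MonoidHom.mem_ker.mp h3)
  exact (commutatorElement_eq_one_iff_mul_comm.mp h4).symm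

/-- the preimage of the centre -/
theorem center_of_surj {G L : Type*} [Group G] [Group L] {π : G →* L} (hG : commutator G = ⊤)
    (hk : π.ker ≤ center G) {x : G} (hx : π x ∈ center L) : x ∈ center G := by
  have hz : ∀ y, ⁅x, y⁆ ∈ center G := by
    intro y
    apply hk
    rw [MonoidHom.mem_ker, map_commutatorElement, commutatorElement_eq_one_iff_mul_comm]
    exact (mem_center_iff.mp hx (π y)).symm
  let F : G →* center G :=
    { toFun := fun y => ⟨⁅x, y⁆, hz y⟩
      map_one' := Subtype.ext (commutatorElement_one_right x)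
      map_mul' := fun y z => Subtype.ext (comm_mul_right_of (hz z)) }
  have h2 : commutator G ≤ F.ker := by
    rw [commutator_def, commutator_le]
    intro y _ z _
    rw [MonoidHom.mem_ker, map_commutatorElement, commutatorElement_eq_one_iff_mul_comm]
    exact Subtype.ext (mem_center_iff.mp (F z).2 (F y))
  rw [mem_center_iff]
  intro y
  have h3 : y ∈ F.ker := h2 (by rw [hG]; exact mem_top y)
  have h4 : ⁅x, y⁆ = 1 := congrArg Subtype.val (MonoidHom.mem_ker.mp h3)
  exact (commutatorElement_eq_one_iff_mul_comm.mp h4).symm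

/-- an alternating form given as a function -/
theorem exists_bilin {K : Type} [Field K] {V : Type} [AddCommGroup V] [Module K V]
    {B : V → V → K} (hadd : ∀ x y z, B (x + y) z = B x z + B y z)
    (hadd' : ∀ x y z, B x (y + z) = B x y + B x z)
    (hsmul : ∀ (a : K) x y, B (a • x) y = a * B x y) (halt : ∀ x, B x x = 0)
    (hnd : ∀ x, (∀ y, B x y = 0) → x = 0) :
    ∃ B' : BilinForm K V, (∀ x y, B' x y = B x y) ∧ Sy B' := by
  have hneg : ∀ x y, B y x = - B x y := by
    intro x y
    have h := halt (x + y)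
    rw [hadd, hadd', hadd', halt, halt, zero_add, add_zero] at h
    exact eq_neg_of_add_eq_zero_right h
  let B' : BilinForm K V := LinearMap.mk₂ K B hadd hsmul hadd' (by
    intro c x y
    rw [hneg, hsmul, hneg x y, smul_eq_mul]
    ring)
  exact ⟨B', fun x y => rfl, fun x => halt x, fun x hx => hnd x hx⟩

/-- **The same in the form used for the classes of pairs**: `X` is the group of all isometries of a
nondegenerate alternating form, `T` is the quotient of `X` by the scalars; then every finite perfect
`L` with `L/Z(L) ≅ T` is a quotient of `X` by scalars. -/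
theorem exists_surj_alt {K : Type} [Field K] [Finite K] (hK : 9 < Nat.card K) {V : Type}
    [AddCommGroup V] [Module K V] [Module.Finite K V] (hd : 2 ≤ finrank K V)
    {B : V → V → K} (hadd : ∀ x y z, B (x + y) z = B x z + B y z)
    (hadd' : ∀ x y z, B x (y + z) = B x y + B x z)
    (hsmul : ∀ (a : K) x y, B (a • x) y = a * B x y) (halt : ∀ x, B x x = 0)
    (hnd : ∀ x, (∀ y, B x y = 0) → x = 0)
    {X : Subgroup (SpecialLinearGroup K V)}
    (hX : ∀ g : SpecialLinearGroup K V, g ∈ X ↔ ∀ x y, B (g x) (g y) = B x y)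
    {T : Type*} [Group T] {π : X →* T} (hπ : Function.Surjective π)
    (hker : ∀ x : X, π x = 1 ↔ (x : SpecialLinearGroup K V) ∈ center (SpecialLinearGroup K V))
    {L : Type} [Group L] [Finite L] (hL : commutator L = ⊤) (e : L ⧸ center L ≃* T) :
    ∃ π' : X →* L, Function.Surjective π' ∧ ∀ x : X, π' x ∈ center L ↔
      (x : SpecialLinearGroup K V) ∈ center (SpecialLinearGroup K V) := by
  obtain ⟨B', hBB, hB⟩ := exists_bilin hadd hadd' hsmul halt hnd
  have hX' : ∀ g : SpecialLinearGroup K V, g ∈ X ↔ ∀ x y, B' (g x) (g y) = B' x y := by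
    intro g
    rw [hX]
    simp only [hBB]
  have hperf : commutator X = ⊤ := by
    obtain ⟨ε, -⟩ := exists_equivSL hB (by omega) hX'
    have h1 := SpG_perfect' (by omega : 3 < Nat.card K) hB
    have h2 : (commutator (SpG B')).map ε.toMonoidHom = ⊤ := by
      rw [h1, ← MonoidHom.range_eq_map, MonoidHom.range_eq_top]
      exact ε.surjective
    rw [eq_top_iff, ← h2, commutator_def, map_commutator, commutator_def]
    exact commutator_mono le_top le_top
  -- the centre of `X`
  have hcen : ∀ x : X, x ∈ center X ↔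
      (x : SpecialLinearGroup K V) ∈ center (SpecialLinearGroup K V) := by
    intro x
    constructor
    · intro hx
      rw [← hker]
      have h1 : e.symm (π x) ∈ center (L ⧸ center L) := by
        rw [mem_center_iff]
        intro t
        obtain ⟨y, hy⟩ := hπ (e t)
        have h2 : t = e.symm (π y) := by rw [hy, e.symm_apply_apply]
        rw [h2, ← map_mul, ← map_mul, ← map_mul, ← map_mul, mem_center_iff.mp hx y]
      have h2 := center_quot_trivial hL h1
      exact (MulEquiv.map_eq_one_iff e.symm).mp h2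
    · intro hx
      rw [mem_center_iff] at hx ⊢
      intro y
      exact Subtype.ext (hx y)
  have hk : π.ker = center X := by
    ext x
    rw [MonoidHom.mem_ker, hker, hcen]
  let e' : L ⧸ center L ≃* X ⧸ center X :=
    e.trans ((QuotientGroup.quotientKerEquivOfSurjective π hπ).symm.trans
      (QuotientGroup.quotientMulEquivOfEq hk))
  obtain ⟨π', h1, h2⟩ := exists_surj_sp hB hd hK hX' hL e'
  refine ⟨π', h1, fun x => ⟨fun hx => (hcen x).mp (center_of_surj hperf h2 hx), fun hx => ?_⟩⟩
  have h3 := (hcen x).mpr hx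
  rw [mem_center_iff]
  intro y
  obtain ⟨y, rfl⟩ := h1 y
  rw [← map_mul, ← map_mul, mem_center_iff.mp h3 y]

end Vale.Agent.P180.R2.H589.Sp
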