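import Vale.Agent.P180.R2.H589.Sp.Au5

/-!
P180: automorphisms of odd order prime to `|Aut K|` of quotients of `Sp(V)` are inner; the form for
the classes of pairs.
-/

set_option linter.all false

namespace Vale.Agent.P180.R2.H589.Sp

open Subgroup Module
open LinearMap (BilinForm)
open Vale.Agent.P180.R2.H589.Sch

section Odd

variable {K V : Type*} [Field K] [Finite K] [AddCommGroup V] [Module K V] [Finite V]
  {B : BilinForm K V} (hB : Sy B) {L : Type*} [Group L] {π : SpG B →* L}

include hB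

/-- A semilinear similitude which induces the identity is a scalar. -/
theorem refl_of_ind (hV : ∃ v : V, v ≠ 0) (hk : π.ker ≤ center (SpG B)) {g : V ≃+ V} {σ : K ≃+* K}
    {κ : K} (hg : SSim B g σ κ) (h : IndS π 1 g) : σ = RingEquiv.refl K := by
  haveI hp : Fact (ringChar K).Prime := ⟨CharP.char_is_prime K (ringChar K)⟩
  haveI : Finite (V ≃ₗ[K] V) := finite_gl
  have hkp : ¬ ringChar K ∣ Nat.card π.ker := fun hd =>
    not_dvd_center (p := ringChar K) hB (hd.trans (card_dvd_of_le hk))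
  -- `g` stabilises all lines
  have h1 : ∀ v : V, v ≠ 0 → ∃ k : K, g v = k • v := by
    intro v hv
    have h2 : ∀ w, g ((tG hB v 1 : V ≃ₗ[K] V) w) = (tG hB (g v) κ⁻¹ : V ≃ₗ[K] V) (g w) := by
      intro w
      change g (tS hB v 1 w) = tS hB (g v) κ⁻¹ (g w)
      rw [tS_apply, tS_apply, map_add, hg.sl, hg.form, one_mul, inv_mul_cancel_left₀ hg.ne]
    have h3 := h _ _ h2
    have h4 : tG hB v 1 = tG hB (g v) κ⁻¹ :=
      pel_unique (f := π) hk hkp (tG_pel hB _ _) (tG_pel hB _ _) h3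
    exact tS_eq hB hv one_ne_zero (congrArg Subtype.val h4)
  obtain ⟨u, hu⟩ := hV
  obtain ⟨v, huv⟩ := hB.exists_one hu
  have hv : v ≠ 0 := by
    rintro rfl
    rw [map_zero] at huv
    exact zero_ne_one huv
  obtain ⟨a, ha⟩ := h1 u hu
  obtain ⟨b, hb⟩ := h1 v hv
  have key : ∀ c : K, σ c * a = b * c := by
    intro c
    have h2 : c • u + v ≠ 0 := by
      intro h3
      have h4 := congrArg (B u) h3
      rw [map_add, map_smul, hB.alt, smul_zero, zero_add, huv, map_zero] at h4
      exact one_ne_zero h4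
    obtain ⟨k, hk⟩ := h1 _ h2
    rw [map_add, hg.sl, ha, hb] at hk
    have h3 := congrArg (B u) hk
    have h4 := congrArg (fun w => B w v) hk
    simp only [map_add, map_smul, LinearMap.add_apply, LinearMap.smul_apply, hB.alt, huv,
      smul_eq_mul, mul_zero, zero_add, add_zero, mul_one] at h3 h4
    rw [h3, h4]
  have hab := key 1
  rw [map_one, one_mul, mul_one] at hab
  have ha0 : a ≠ 0 := by
    rintro rfl
    rw [zero_smul] at ha
    exact hu (g.map_eq_zero_iff.mp ha)
  ext c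
  have h2 := key c
  rw [← hab, mul_comm] at h2
  exact mul_left_cancel₀ ha0 h2

/-- **Automorphisms of odd order prime to `|Aut K|` are inner.** -/
theorem inner_of_coprime (hV : ∃ v : V, v ≠ 0) (hπ : Function.Surjective π)
    (hk : π.ker ≤ center (SpG B))
    (H : ∀ α : MulAut L, ∃ (g : V ≃+ V) (σ : K ≃+* K) (κ : K), SSim B g σ κ ∧ IndS π α g)
    {α : MulAut L} {m : ℕ} (hm : Odd m) (hc : m.Coprime (Nat.card (K ≃+* K))) (h : α ^ m = 1) :
    α ∈ (MulAut.conj : L →* MulAut L).range := by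
  obtain ⟨g, σ, κ, hg, h1⟩ := H α
  have hpow : ∀ n : ℕ, ∃ (g' : V ≃+ V) (κ' : K), SSim B g' ((σ : RingAut K) ^ n) κ' ∧
      IndS π (α ^ n) g' := by
    intro n
    induction n with
    | zero =>
      refine ⟨AddEquiv.refl V, 1, ⟨fun c v => rfl, one_ne_zero, fun u v => (one_mul _).symm⟩, ?_⟩
      intro x y hxy
      have h1 : x = y := Subtype.ext (LinearEquiv.ext hxy)
      rw [h1, pow_zero]
      rfl
    | succ n ih =>
      obtain ⟨g', κ', h2, h3⟩ := ih
      refine ⟨g.trans g', κ' * ((σ : RingAut K) ^ n) κ, ?_, ?_⟩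
      · have h4 := h2.mul hg
        rw [pow_succ]
        exact h4
      · rw [pow_succ]
        exact h3.mul hg h1
  obtain ⟨g', κ', h2, h3⟩ := hpow m
  rw [h] at h3
  have h4 : ((σ : RingAut K) ^ m) = 1 := refl_of_ind hB hV hk h2 h3
  haveI : Finite (RingAut K) := Finite.of_injective (fun e : K ≃+* K => (e : K → K))
    (fun e e' h => RingEquiv.ext (congrFun h))
  have h5 : (σ : RingAut K) = 1 := by
    have h6 := orderOf_dvd_of_pow_eq_one h4
    have h7 : orderOf (σ : RingAut K) ∣ Nat.card (RingAut K) := orderOf_dvd_natCard _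
    have h8 := Nat.eq_one_of_dvd_coprimes hc h6 h7
    exact orderOf_eq_one_iff.mp h8
  have h6 : σ = RingEquiv.refl K := h5
  subst h6
  obtain ⟨j, hj⟩ := hm
  have h7 : (α ^ 2) ∈ (MulAut.conj : L →* MulAut L).range := by
    have h8 := hg.mul hg
    have h9 := h1.mul hg h1
    refine IndS.inner (g := g.trans g) hπ hg.ne ?_ (by rw [pow_two]; exact h9)
    rw [pow_two]
    exact h8
  have h8 : α = (α ^ 2) ^ (j + 1) := by
    rw [← pow_mul]
    have h9 : 2 * (j + 1) = m + 1 := by omega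
    rw [h9, pow_succ, h, one_mul]
  rw [h8]
  exact Subgroup.pow_mem _ h7 _

end Odd

section Pairs

variable {K : Type} [Field K] [Finite K] {V : Type} [AddCommGroup V] [Module K V]
  [Module.Finite K V] {B : BilinForm K V} (hB : Sy B)

include hB

/-- `X ≤ SL(V)` instead of `SpG B` -/
theorem exists_model (hK : 2 < Nat.card K) {X : Subgroup (SpecialLinearGroup K V)}
    (hX : ∀ g : SpecialLinearGroup K V, g ∈ X ↔ ∀ x y, B (g x) (g y) = B x y)
    {L : Type*} [Group L] {π : X →* L} (hπ : Function.Surjective π) (hk : π.ker ≤ center X) :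
    ∃ (e : SpG B ≃* X) (π' : SpG B →* L), Function.Surjective π' ∧ π'.ker ≤ center (SpG B) ∧
      (∀ g, π' g = π (e g)) ∧ ∀ (g : SpG B) (v : V),
      ((e g : X) : SpecialLinearGroup K V) v = (g : V ≃ₗ[K] V) v := by
  obtain ⟨e, he⟩ := exists_equivSL hB hK hX
  refine ⟨e, π.comp e.toMonoidHom, hπ.comp e.surjective, ?_, fun g => rfl, he⟩
  intro x hx
  have h1 : e x ∈ center X := hk hx
  rw [mem_center_iff] at h1 ⊢
  intro y
  apply e.injective
  rw [map_mul, map_mul]
  exact h1 (e y)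

/-- **Semilinear similitudes, for isometry groups in `SL(V)`.** -/
theorem ssim_of_aut (hK : 3 < Nat.card K) (h2 : (2 : K) ≠ 0) (hd : 2 < finrank K V)
    {X : Subgroup (SpecialLinearGroup K V)}
    (hX : ∀ g : SpecialLinearGroup K V, g ∈ X ↔ ∀ x y, B (g x) (g y) = B x y)
    {L : Type*} [Group L] {π : X →* L} (hπ : Function.Surjective π) (hk : π.ker ≤ center X)
    (α : MulAut L) :
    ∃ (σ : K ≃+* K) (κ : K) (g : V ≃+ V), κ ≠ 0 ∧ (∀ (c : K) v, g (c • v) = σ c • g v) ∧
      (∀ u v, B (g u) (g v) = κ * σ (B u v)) ∧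
      ∀ x y : X, (∀ v, g ((x : SpecialLinearGroup K V) v) = (y : SpecialLinearGroup K V) (g v)) →
        α (π x) = π y := by
  obtain ⟨e, π', h1, h3, h4, h5⟩ := exists_model hB (by omega) hX hπ hk
  obtain ⟨g, σ, κ, hg, hind⟩ := exists_ssim_L hB hK h2 hd h1 h3 α
  refine ⟨σ, κ, g, hg.ne, hg.sl, hg.form, fun x y hxy => ?_⟩
  obtain ⟨x, rfl⟩ := e.surjective x
  obtain ⟨y, rfl⟩ := e.surjective y
  rw [← h4, ← h4]
  refine hind x y fun v => ?_
  have h6 := hxy v
  rwa [h5, h5] at h6

/-- **Conjugation in an overgroup.** -/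
theorem ssim_conj (hK : 3 < Nat.card K) (h2 : (2 : K) ≠ 0) (hd : 2 < finrank K V)
    {X : Subgroup (SpecialLinearGroup K V)}
    (hX : ∀ g : SpecialLinearGroup K V, g ∈ X ↔ ∀ x y, B (g x) (g y) = B x y)
    {G : Type*} [Group G] {L : Subgroup G} {π : X →* L} (hπ : Function.Surjective π)
    (hk : π.ker ≤ center X) {r : G} (hr : r ∈ normalizer (L : Set G)) :
    ∃ (σ : K ≃+* K) (κ : K) (g : V ≃+ V), κ ≠ 0 ∧ (∀ (c : K) v, g (c • v) = σ c • g v) ∧
      (∀ u v, B (g u) (g v) = κ * σ (B u v)) ∧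
      ∀ x y : X, (∀ v, g ((x : SpecialLinearGroup K V) v) = (y : SpecialLinearGroup K V) (g v)) →
        r * (π x : G) * r⁻¹ = π y := by
  obtain ⟨σ, κ, g, h1, h3, h4, h5⟩ := ssim_of_aut hB hK h2 hd hX hπ hk
    (normalizerMonoidHom L ⟨r, hr⟩)
  refine ⟨σ, κ, g, h1, h3, h4, fun x y hxy => ?_⟩
  rw [← h5 x y hxy]
  rfl

/-- **`Out` of the quotients of `Sp(V)` by central subgroups is solvable.** -/
theorem derived_le_conj (hK : 3 < Nat.card K) (h2 : (2 : K) ≠ 0) (hd : 2 < finrank K V)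
    {X : Subgroup (SpecialLinearGroup K V)}
    (hX : ∀ g : SpecialLinearGroup K V, g ∈ X ↔ ∀ x y, B (g x) (g y) = B x y)
    {L : Type*} [Group L] {π : X →* L} (hπ : Function.Surjective π) (hk : π.ker ≤ center X) :
    derivedSeries (MulAut L) 2 ≤ (MulAut.conj : L →* MulAut L).range := by
  obtain ⟨e, π', h1, h3, h4, h5⟩ := exists_model hB (by omega) hX hπ hk
  exact derived_le h1 (fun α => exists_ssim_L hB hK h2 hd h1 h3 α)

/-- **Automorphisms of odd order prime to `|Aut K|` are inner.** -/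
theorem inner_of_coprime_X (hK : 3 < Nat.card K) (h2 : (2 : K) ≠ 0) (hd : 2 < finrank K V)
    {X : Subgroup (SpecialLinearGroup K V)}
    (hX : ∀ g : SpecialLinearGroup K V, g ∈ X ↔ ∀ x y, B (g x) (g y) = B x y)
    {L : Type*} [Group L] {π : X →* L} (hπ : Function.Surjective π) (hk : π.ker ≤ center X)
    {α : MulAut L} {m : ℕ} (hm : Odd m) (hc : m.Coprime (Nat.card (K ≃+* K))) (h : α ^ m = 1) :
    α ∈ (MulAut.conj : L →* MulAut L).range := by
  haveI : Finite V := Module.finite_of_finite K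
  obtain ⟨e, π', h1, h3, h4, h5⟩ := exists_model hB (by omega) hX hπ hk
  have hV : ∃ v : V, v ≠ 0 := by
    by_contra hcon
    push Not at hcon
    have h3 : Subsingleton V := ⟨fun x y => by rw [hcon x, hcon y]⟩
    have h4 := Module.finrank_zero_of_subsingleton (R := K) (M := V)
    omega
  exact inner_of_coprime hB hV h1 h3 (fun α => exists_ssim_L hB hK h2 hd h1 h3 α) hm hc h

/-- **The same for the simple group**, no condition on `|K|`. -/
theorem derived_le_conj_T (h2 : (2 : K) ≠ 0) (hd : 2 < finrank K V)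
    {X : Subgroup (SpecialLinearGroup K V)}
    (hX : ∀ g : SpecialLinearGroup K V, g ∈ X ↔ ∀ x y, B (g x) (g y) = B x y)
    {T : Type*} [Group T] {π : X →* T} (hπ : Function.Surjective π) (hk : π.ker = center X) :
    derivedSeries (MulAut T) 2 ≤ (MulAut.conj : T →* MulAut T).range := by
  obtain ⟨e, π', h1, h3, h4, h5⟩ := exists_model hB (two_lt_card h2) hX hπ hk.le
  have h6 : π'.ker = center (SpG B) := by
    refine le_antisymm h3 fun x hx => ?_
    rw [MonoidHom.mem_ker, h4, ← MonoidHom.mem_ker, hk]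
    rw [mem_center_iff] at hx ⊢
    intro y
    obtain ⟨y, rfl⟩ := e.surjective y
    rw [← map_mul, ← map_mul, hx]
  exact derived_le h1 (fun α => exists_ssim hB h2 hd h1 h6 α)

/-- **Automorphisms of odd order prime to `|Aut K|` of the simple group are inner.** -/
theorem inner_of_coprime_T (h2 : (2 : K) ≠ 0) (hd : 2 < finrank K V)
    {X : Subgroup (SpecialLinearGroup K V)}
    (hX : ∀ g : SpecialLinearGroup K V, g ∈ X ↔ ∀ x y, B (g x) (g y) = B x y)
    {T : Type*} [Group T] {π : X →* T} (hπ : Function.Surjective π) (hk : π.ker = center X)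
    {α : MulAut T} {m : ℕ} (hm : Odd m) (hc : m.Coprime (Nat.card (K ≃+* K))) (h : α ^ m = 1) :
    α ∈ (MulAut.conj : T →* MulAut T).range := by
  haveI : Finite V := Module.finite_of_finite K
  obtain ⟨e, π', h1, h3, h4, h5⟩ := exists_model hB (two_lt_card h2) hX hπ hk.le
  have h6 : π'.ker = center (SpG B) := by
    refine le_antisymm h3 fun x hx => ?_
    rw [MonoidHom.mem_ker, h4, ← MonoidHom.mem_ker, hk]
    rw [mem_center_iff] at hx ⊢
    intro y
    obtain ⟨y, rfl⟩ := e.surjective y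
    rw [← map_mul, ← map_mul, hx]
  have hV : ∃ v : V, v ≠ 0 := by
    by_contra hcon
    push Not at hcon
    have h3 : Subsingleton V := ⟨fun x y => by rw [hcon x, hcon y]⟩
    have h4 := Module.finrank_zero_of_subsingleton (R := K) (M := V)
    omega
  exact inner_of_coprime hB hV h1 h3 (fun α => exists_ssim hB h2 hd h1 h6 α) hm hc h

end Pairs

end Vale.Agent.P180.R2.H589.Sp
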