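import Vale.Agent.P180.R2.H589.Sp.Au3

/-!
P180: **every automorphism of `PSp(V)`, `dim V ≥ 4`, odd characteristic, is induced by a semilinear
similitude**.
-/

set_option linter.all false

namespace Vale.Agent.P180.R2.H589.Sp

open Subgroup Module
open LinearMap (BilinForm)
open Vale.Agent.P180.R2.H589.Sch

section Def

variable {K V : Type*} [Field K] [AddCommGroup V] [Module K V]

/-- semilinear similitudes -/
structure SSim (B : BilinForm K V) (g : V ≃+ V) (σ : K ≃+* K) (κ : K) : Prop where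
  sl : ∀ (c : K) v, g (c • v) = σ c • g v
  ne : κ ≠ 0
  form : ∀ u v, B (g u) (g v) = κ * σ (B u v)

/-- `α` is induced by `g` -/
def IndS {B : BilinForm K V} {T : Type*} [Group T] (π : SpG B →* T) (α : MulAut T) (g : V ≃+ V) :
    Prop :=
  ∀ x y : SpG B, (∀ v, g ((x : V ≃ₗ[K] V) v) = (y : V ≃ₗ[K] V) (g v)) → α (π x) = π y

variable {B : BilinForm K V}

/-- conjugation by a semilinear similitude -/
theorem SSim.exists_conj {g : V ≃+ V} {σ : K ≃+* K} {κ : K} (hg : SSim B g σ κ) (x : SpG B) :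
    ∃ y : SpG B, ∀ v, g ((x : V ≃ₗ[K] V) v) = (y : V ≃ₗ[K] V) (g v) := by
  have hsl : ∀ (c : K) v, g.symm (σ c • v) = c • g.symm v := by
    intro c v
    apply g.injective
    rw [g.apply_symm_apply, hg.sl, g.apply_symm_apply]
  let y : V ≃ₗ[K] V :=
    { toFun := fun v => g ((x : V ≃ₗ[K] V) (g.symm v))
      map_add' := by
        intro u v
        rw [map_add, map_add, map_add]
      map_smul' := by
        intro c v
        obtain ⟨c, rfl⟩ := σ.surjective c
        rw [hsl, map_smul, hg.sl]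
        rfl
      invFun := fun v => g ((x : V ≃ₗ[K] V).symm (g.symm v))
      left_inv := by
        intro v
        change g ((x : V ≃ₗ[K] V).symm (g.symm (g ((x : V ≃ₗ[K] V) (g.symm v))))) = v
        rw [g.symm_apply_apply, LinearEquiv.symm_apply_apply, g.apply_symm_apply]
      right_inv := by
        intro v
        change g ((x : V ≃ₗ[K] V) (g.symm (g ((x : V ≃ₗ[K] V).symm (g.symm v))))) = v
        rw [g.symm_apply_apply, LinearEquiv.apply_symm_apply, g.apply_symm_apply] }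
  have hy : ∀ v, y (g v) = g ((x : V ≃ₗ[K] V) v) := by
    intro v
    change g ((x : V ≃ₗ[K] V) (g.symm (g v))) = _
    rw [g.symm_apply_apply]
  refine ⟨⟨y, fun u v => ?_⟩, fun v => (hy v).symm⟩
  obtain ⟨u, rfl⟩ := g.surjective u
  obtain ⟨v, rfl⟩ := g.surjective v
  rw [hy, hy, hg.form, hg.form, x.2]

end Def

variable {K W : Type*} [Field K] [AddCommGroup W] [Module K W] {B : BilinForm K W}

/-- the last vector -/
def o' (K W : Type*) [Field K] [AddCommGroup W] [Module K W] : K × W × K := (0, 0, 1)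

theorem qG_o' (hB : Sy B) (y : W) (c : K) :
    ((qG hB y c : SpG (hyp B)) : (K × W × K) ≃ₗ[K] (K × W × K)) (o' K W) = (c, y, 1) := by
  change qq B y c (o' K W) = _
  rw [qq_apply]
  refine Prod.ext ?_ (Prod.ext ?_ rfl)
  · change (0 : K) - B 0 y + c * 1 = c
    rw [map_zero, LinearMap.zero_apply]
    ring
  · change (0 : W) + (1 : K) • y = y
    rw [one_smul, zero_add]

section Aut

variable (hB : Sy B) {T : Type*} [Group T] {π : SpG (hyp B) →* T}
  (p : ℕ) [hp : Fact p.Prime] [CharP K p] [Finite K] [Finite W] (h2 : (2 : K) ≠ 0)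
  (hW : ∃ x : W, x ≠ 0) (hker : π.ker = center (SpG (hyp B))) (hπ : Function.Surjective π)

omit hp [CharP K p] [Finite K] [Finite W] in
theorem conj_iff_of_mem {X Y : Subgroup T} {β : MulAut T} (h : ∀ x, β x ∈ Y ↔ x ∈ X) (t x : T) :
    (β t)⁻¹ * β x * β t ∈ Y ↔ t⁻¹ * x * t ∈ X := by
  rw [← h, map_mul, map_mul, map_inv]

omit hp [CharP K p] [Finite K] [Finite W] in
theorem XT_conj_iff' {V : Type*} [AddCommGroup V] [Module K V] {B : BilinForm K V} (hB : Sy B)
    {π : SpG B →* T} (g : SpG B) (v : V) {t : T} :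
    (π g)⁻¹ * t * π g ∈ XT π hB v ↔ t ∈ XT π hB ((g : V ≃ₗ[K] V) v) := by
  rw [← XT_conj_iff π hB g v]
  have : π g * ((π g)⁻¹ * t * π g) * (π g)⁻¹ = t := by group
  rw [this]

include hπ h2 in
omit hp [CharP K p] in
/-- The transvection groups are permuted. -/
theorem exists_img {β : MulAut T} (hβ : ∀ x, β x ∈ XT π (hyp_sy hB) (oo K W) ↔
    x ∈ XT π (hyp_sy hB) (oo K W)) {v : K × W × K} (hv : v ≠ 0) :
    ∃ w : K × W × K, w ≠ 0 ∧ ∀ x, β x ∈ XT π (hyp_sy hB) w ↔ x ∈ XT π (hyp_sy hB) v := by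
  have hV := hyp_sy hB
  obtain ⟨g, hg, hgv⟩ := TG_trans hV (two_lt_card h2) (oo_ne (K := K) (W := W)) hv
  obtain ⟨a, ha⟩ : ∃ a : SpG (hyp B), a = ⟨g, TG_le hV hg⟩ := ⟨_, rfl⟩
  have hav : (a : (K × W × K) ≃ₗ[K] (K × W × K)) (oo K W) = v := by rw [ha]; exact hgv
  obtain ⟨b, hb⟩ := hπ (β (π a))
  refine ⟨(b : (K × W × K) ≃ₗ[K] (K × W × K)) (oo K W),
    fun h => oo_ne (LinearEquiv.map_eq_zero_iff _ |>.mp h), fun x => ?_⟩
  rw [← XT_conj_iff', hb, conj_iff_of_mem hβ, XT_conj_iff', hav]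

include hp hker h2 hπ in
/-- Normalisation. -/
theorem exists_norm (α : MulAut T) : ∃ t : T,
    (∀ x, (MulAut.conj t * α) x ∈ XT π (hyp_sy hB) (oo K W) ↔
      x ∈ XT π (hyp_sy hB) (oo K W)) ∧
    (∀ x, (MulAut.conj t * α) x ∈ XT π (hyp_sy hB) (o' K W) ↔
      x ∈ XT π (hyp_sy hB) (o' K W)) := by
  have hV := hyp_sy hB
  haveI : Finite ((K × W × K) ≃ₗ[K] (K × W × K)) := finite_gl
  haveI : Finite T := Finite.of_surjective π hπ
  obtain ⟨t, ht⟩ := exists_fix_XT hB p h2 hker hπ α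
  obtain ⟨β, hβ⟩ : ∃ β, β = MulAut.conj t * α := ⟨_, rfl⟩
  rw [← hβ] at ht
  have ho' : o' K W ≠ 0 := fun h => one_ne_zero (congrArg (fun u : K × W × K => u.2.2) h)
  obtain ⟨w, hw0, hw⟩ := exists_img hB h2 hπ ht ho'
  -- `w` is not orthogonal to the first vector
  have hw2 : w.2.2 ≠ 0 := by
    intro h0
    have h3 : hyp B w (oo K W) = 0 := by
      rw [hyp_apply, h0]
      change w.1 * 0 - 0 * 1 + B w.2.1 0 = 0
      rw [map_zero]
      ring
    have h4 : hyp B (o' K W) (oo K W) = 0 := by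
      refine orth_of_XT p hV hker oo_ne fun x hx y hy => ?_
      apply β.injective
      rw [map_mul, map_mul]
      exact XT_comm hV h3 ((hw x).mpr hx) ((ht y).mpr hy)
    rw [hyp_apply] at h4
    change (0 : K) * 0 - 1 * 1 + B 0 0 = 0 at h4
    rw [map_zero, mul_one, zero_mul, zero_sub, add_zero] at h4
    exact one_ne_zero (neg_eq_zero.mp h4)
  obtain ⟨a, ha⟩ : ∃ a : SpG (hyp B), a = qG hB (w.2.2⁻¹ • w.2.1) (w.2.2⁻¹ * w.1) := ⟨_, rfl⟩
  have ha1 : (a : (K × W × K) ≃ₗ[K] (K × W × K)) (o' K W) = w.2.2⁻¹ • w := by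
    rw [ha, qG_o']
    refine Prod.ext rfl (Prod.ext rfl ?_)
    exact (inv_mul_cancel₀ hw2).symm
  have ha2 : (a : (K × W × K) ≃ₗ[K] (K × W × K)) (oo K W) = oo K W := by rw [ha, qG_oo]
  have ha3 : XT π hV w = XT π hV ((a : (K × W × K) ≃ₗ[K] (K × W × K)) (o' K W)) := by
    rw [ha1, XT_smul π hV (inv_ne_zero hw2)]
  have key : ∀ x, (MulAut.conj ((π a)⁻¹ * t) * α) x = (π a)⁻¹ * β x * π a := by
    intro x
    rw [map_mul, mul_assoc, ← hβ, MulAut.mul_apply, MulAut.conj_apply, inv_inv]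
  refine ⟨(π a)⁻¹ * t, fun x => ?_, fun x => ?_⟩
  · rw [key, XT_conj_iff', ha2, ht]
  · rw [key, XT_conj_iff', ← ha3, hw]

include hp hB hker h2 hW hπ in
/-- **Every automorphism of `PSp(V)`** is induced by a semilinear similitude. -/
theorem exists_ssim_hyp (α : MulAut T) : ∃ (g : (K × W × K) ≃+ (K × W × K)) (σ : K ≃+* K) (κ : K),
    SSim (hyp B) g σ κ ∧ IndS π α g := by
  have hV := hyp_sy hB
  obtain ⟨t, ht1, ht2⟩ := exists_norm hB p h2 hker hπ α
  obtain ⟨β, hβ⟩ : ∃ β, β = MulAut.conj t * α := ⟨_, rfl⟩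
  rw [← hβ] at ht1 ht2
  obtain ⟨s, σ, κ, ν, hκ, hs, hform, hνadd, hmap⟩ := exists_maps hB p h2 hW hker hπ ht1
  have ho'0 : o' K W ≠ 0 := fun h => one_ne_zero (congrArg (fun u : K × W × K => u.2.2) h)
  -- `ν = 0`
  have hν0 : ν 0 = 0 := by
    have := hνadd 0 0
    rw [add_zero] at this
    exact add_eq_left.mp this.symm
  have hν : ∀ y, ν y = 0 := by
    obtain ⟨a, ha⟩ : ∃ a : SpG (hyp B), a = lG hB 1 (-1) := ⟨_, rfl⟩
    have ha1 : ∀ y c, a * qG hB y c * a⁻¹ = qG hB (-y) c := by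
      intro y c
      rw [ha, lG_qG]
      congr 1
      · change ((-1 : Kˣ) : K) • y = -y
        rw [Units.val_neg, Units.val_one, neg_one_smul]
      · rw [Units.val_neg, Units.val_one, neg_one_sq, one_mul]
    have ha2 : (a : (K × W × K) ≃ₗ[K] (K × W × K)) (oo K W) = (-1 : K) • oo K W := by
      rw [ha]
      refine Prod.ext ?_ (Prod.ext ?_ ?_)
      · change ((-1 : Kˣ) : K) * 1 = (-1) * 1
        rw [Units.val_neg, Units.val_one]
      · change (0 : W) = (-1 : K) • (0 : W)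
        rw [smul_zero]
      · change (((-1 : Kˣ)⁻¹ : Kˣ) : K) * 0 = (-1) * 0
        rw [mul_zero, mul_zero]
    have ha3 : (a : (K × W × K) ≃ₗ[K] (K × W × K)) (o' K W) = (-1 : K) • o' K W := by
      rw [ha]
      refine Prod.ext ?_ (Prod.ext ?_ ?_)
      · change ((-1 : Kˣ) : K) * 0 = (-1) * 0
        rw [mul_zero, mul_zero]
      · change (0 : W) = (-1 : K) • (0 : W)
        rw [smul_zero]
      · change (((-1 : Kˣ)⁻¹ : Kˣ) : K) * 1 = (-1) * 1
        rw [inv_neg, inv_one, Units.val_neg, Units.val_one]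
    obtain ⟨b, hb⟩ := hπ (β (π a))
    have hneg : ∀ v : K × W × K, XT π hV ((-1 : K) • v) = XT π hV v := fun v =>
      XT_smul π hV (neg_ne_zero.mpr one_ne_zero) v
    have hb1 : ∀ v : K × W × K, (∀ x, β x ∈ XT π hV v ↔ x ∈ XT π hV v) →
        (a : (K × W × K) ≃ₗ[K] (K × W × K)) v = (-1 : K) • v →
        ∀ x ∈ XT π hV v, π b * x * (π b)⁻¹ ∈ XT π hV v := by
      intro v hv hav x hx
      obtain ⟨x, rfl⟩ := β.surjective x
      rw [hb, ← map_inv, ← map_mul, ← map_mul, hv]
      have h3 := XT_conj π hV a v ((hv x).mp hx)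
      rwa [hav, hneg] at h3
    obtain ⟨k, hk⟩ := line_of_norm p hV hker oo_ne (hb1 _ ht1 ha2)
    obtain ⟨k', hk'⟩ := line_of_norm p hV hker ho'0 (hb1 _ ht2 ha3)
    obtain ⟨m, l, y₀, c₀, -, hbd⟩ := decomp hB hk
    have hb2 : y₀ = 0 ∧ c₀ = 0 := by
      rw [hbd] at hk'
      change lv (m : W ≃ₗ[K] W) l ((qG hB y₀ c₀ : (K × W × K) ≃ₗ[K] (K × W × K)) (o' K W)) = _
        at hk'
      rw [qG_o', lv_apply] at hk'
      have h3 := congrArg Prod.fst hk'
      have h4 := congrArg (fun u : K × W × K => u.2.1) hk'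
      change (l : K) * c₀ = k' * 0 at h3
      change (m : W ≃ₗ[K] W) y₀ = k' • (0 : W) at h4
      rw [mul_zero] at h3
      rw [smul_zero] at h4
      exact ⟨(m : W ≃ₗ[K] W).map_eq_zero_iff.mp h4, (mul_eq_zero.mp h3).resolve_left l.ne_zero⟩
    rw [hb2.1, hb2.2, qG_zero, mul_one] at hbd
    have key : ∀ y c, (l : K) ^ 2 * (ν y + κ * σ c) = ν (-y) + κ * σ c := by
      intro y c
      have h3 : β (π (a * qG hB y c * a⁻¹)) = π (b * qG hB (s y) (ν y + κ * σ c) * b⁻¹) := by
        rw [map_mul, map_mul, map_inv, map_mul, map_mul, map_inv, ← hb, hmap, map_mul, map_mul,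
          map_inv]
      rw [ha1, hmap, hbd, lG_qG] at h3
      exact (piq_inj hB p h2 hker h3).2.symm
    have hl2 : (l : K) ^ 2 = 1 := by
      have h3 := key 0 1
      rw [neg_zero, hν0, zero_add, map_one, mul_one] at h3
      exact mul_right_cancel₀ hκ (by rw [h3, one_mul])
    intro y
    have h3 := key y 0
    have h4 := hνadd y (-y)
    rw [add_neg_cancel, hν0] at h4
    rw [hl2, one_mul, map_zero, mul_zero, add_zero, add_zero] at h3
    rw [← h3, ← two_mul] at h4
    exact (mul_eq_zero.mp h4.symm).resolve_left h2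
  have hmap' : ∀ y c, β (π (qG hB y c)) = π (qG hB (s y) (κ * σ c)) := by
    intro y c
    rw [hmap, hν, zero_add]
  -- the semilinear map
  let g : (K × W × K) ≃+ (K × W × K) :=
    { toFun := fun u => (κ * σ u.1, s u.2.1, σ u.2.2)
      invFun := fun u => (σ.symm (κ⁻¹ * u.1), s.symm u.2.1, σ.symm u.2.2)
      left_inv := by
        intro u
        refine Prod.ext ?_ (Prod.ext (s.symm_apply_apply _) (σ.symm_apply_apply _))
        change σ.symm (κ⁻¹ * (κ * σ u.1)) = u.1
        rw [inv_mul_cancel_left₀ hκ, σ.symm_apply_apply]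
      right_inv := by
        intro u
        refine Prod.ext ?_ (Prod.ext (s.apply_symm_apply _) (σ.apply_symm_apply _))
        change κ * σ (σ.symm (κ⁻¹ * u.1)) = u.1
        rw [σ.apply_symm_apply, mul_inv_cancel_left₀ hκ]
      map_add' := by
        intro u v
        refine Prod.ext ?_ (Prod.ext (map_add s _ _) (map_add σ _ _))
        change κ * σ (u.1 + v.1) = κ * σ u.1 + κ * σ v.1
        rw [map_add, mul_add] }
  have hg : ∀ u, g u = (κ * σ u.1, s u.2.1, σ u.2.2) := fun u => rfl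
  have hgS : SSim (hyp B) g σ κ := by
    refine ⟨fun c v => ?_, hκ, fun u v => ?_⟩
    · rw [hg, hg]
      refine Prod.ext ?_ (Prod.ext (hs c _) (map_mul σ _ _))
      change κ * σ (c * v.1) = σ c * (κ * σ v.1)
      rw [map_mul]
      ring
    · rw [hg, hg, hyp_apply, hyp_apply, hform, map_add, map_sub, map_mul, map_mul]
      ring
  -- the action on the transvection groups
  have step1 : ∀ v : K × W × K, v.2.2 ≠ 0 → ∀ x, β x ∈ XT π hV (g v) ↔ x ∈ XT π hV v := by
    intro v hv x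
    obtain ⟨y, hy⟩ : ∃ y, y = v.2.2⁻¹ • v.2.1 := ⟨_, rfl⟩
    obtain ⟨c, hc⟩ : ∃ c, c = v.2.2⁻¹ * v.1 := ⟨_, rfl⟩
    have e1 : v = v.2.2 • (c, y, (1 : K)) := by
      refine Prod.ext ?_ (Prod.ext ?_ ?_)
      · change v.1 = v.2.2 * c
        rw [hc, mul_inv_cancel_left₀ hv]
      · change v.2.1 = v.2.2 • y
        rw [hy, smul_smul, mul_inv_cancel₀ hv, one_smul]
      · exact (mul_one _).symm
    have e2 : XT π hV v = XT π hV (c, y, (1 : K)) := by
      rw [e1]
      exact XT_smul π hV hv _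
    have e3 : XT π hV (g v) = XT π hV (κ * σ c, s y, (1 : K)) := by
      rw [e1, hgS.sl, XT_smul π hV ((map_ne_zero σ).mpr hv), hg]
      change XT π hV (κ * σ c, s y, σ 1) = _
      rw [map_one]
    rw [e2, e3, ← qG_o' hB, ← qG_o' hB, ← XT_conj_iff', ← XT_conj_iff', ← hmap',
      conj_iff_of_mem ht2]
  have step2 : ∀ v : K × W × K, v ≠ 0 → ∀ x, β x ∈ XT π hV (g v) ↔ x ∈ XT π hV v := by
    intro v hv
    by_cases hv2 : v.2.2 ≠ 0
    · exact step1 v hv2
    push Not at hv2
    by_cases hvo : ∃ k : K, v = k • oo K W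
    · obtain ⟨k, hk⟩ := hvo
      have hk0 : k ≠ 0 := by
        rintro rfl
        rw [zero_smul] at hk
        exact hv hk
      have e3 : g (oo K W) = κ • oo K W := by
        rw [hg]
        refine Prod.ext ?_ (Prod.ext ?_ ?_)
        · change κ * σ 1 = κ * 1
          rw [map_one]
        · change s 0 = κ • (0 : W)
          rw [map_zero, smul_zero]
        · change σ 0 = κ * 0
          rw [map_zero, mul_zero]
      intro x
      rw [hk, hgS.sl, XT_smul π hV ((map_ne_zero σ).mpr hk0), XT_smul π hV hk0, e3,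
        XT_smul π hV hκ, ht1]
    · obtain ⟨w, hw0, hw⟩ := exists_img hB h2 hπ ht1 hv
      obtain ⟨w', rfl⟩ := g.surjective w
      -- vectors which are not orthogonal to the first vector
      have h3 : ∀ u : K × W × K, u.2.2 ≠ 0 → hyp B u v = 0 → hyp B u w' = 0 := by
        intro u hu huv
        have h4 : hyp B (g u) (g w') = 0 := by
          refine orth_of_XT p hV hker hw0 fun x hx y hy => ?_
          obtain ⟨x, rfl⟩ := β.surjective x
          obtain ⟨y, rfl⟩ := β.surjective y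
          rw [← map_mul, ← map_mul, XT_comm hV huv ((step1 u hu x).mp hx) ((hw y).mp hy)]
        rw [hgS.form] at h4
        exact (map_eq_zero σ).mp ((mul_eq_zero.mp h4).resolve_left hκ)
      have h5 : ∃ u₀ : K × W × K, u₀.2.2 ≠ 0 ∧ hyp B u₀ v = 0 := by
        by_contra hcon
        push Not at hcon
        obtain ⟨k, hk⟩ := exists_smul_of_perp hV hv (b := oo K W) (by
          intro z hz
          have h6 : z.2.2 = 0 := by
            by_contra h7
            exact hcon z h7 hz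
          rw [hyp_apply, h6]
          change z.1 * 0 - 0 * 1 + B z.2.1 0 = 0
          rw [map_zero]
          ring)
        have hk0 : k ≠ 0 := by
          rintro rfl
          rw [zero_smul] at hk
          exact oo_ne hk
        exact hvo ⟨k⁻¹, by rw [hk, smul_smul, inv_mul_cancel₀ hk0, one_smul]⟩
      obtain ⟨u₀, hu₀, hu₀v⟩ := h5
      obtain ⟨k, hk⟩ := exists_smul_of_perp hV hv (b := w') (by
        intro z hz
        by_cases hz2 : z.2.2 = 0
        · have h6 : (z + u₀).2.2 ≠ 0 := by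
            change z.2.2 + u₀.2.2 ≠ 0
            rw [hz2, zero_add]
            exact hu₀
          have h7 := h3 _ h6 (by rw [map_add, LinearMap.add_apply, hz, hu₀v, add_zero])
          rw [map_add, LinearMap.add_apply, h3 _ hu₀ hu₀v, add_zero] at h7
          exact h7
        · exact h3 z hz2 hz)
      have hk0 : k ≠ 0 := by
        rintro rfl
        rw [zero_smul] at hk
        rw [hk, map_zero] at hw0
        exact hw0 rfl
      intro x
      rw [← hw x, hk, hgS.sl, XT_smul π hV ((map_ne_zero σ).mpr hk0)]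
  -- the action on the elements
  have step3 : IndS π β g := by
    intro x y hxy
    obtain ⟨z, hz⟩ := hπ (β (π x))
    rw [← hz]
    refine eq_of_lines hV hker fun w hw => ?_
    obtain ⟨v, rfl⟩ := g.surjective w
    have hv : v ≠ 0 := by
      rintro rfl
      rw [map_zero] at hw
      exact hw rfl
    have hxv : (x : (K × W × K) ≃ₗ[K] (K × W × K)) v ≠ 0 :=
      fun h => hv (LinearEquiv.map_eq_zero_iff _ |>.mp h)
    refine XT_eq p hV hker ?_ ?_
    · rw [← hxy]
      intro h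
      apply hxv
      apply g.injective
      rw [h, map_zero]
    · intro u hu
      rw [← hxy] at hu
      obtain ⟨u, rfl⟩ := β.surjective u
      rw [step2 _ hxv, ← XT_conj_iff', ← step2 v hv, map_mul, map_mul, map_inv, ← hz,
        XT_conj_iff'] at hu
      exact hu
  -- back to `α`
  obtain ⟨z, rfl⟩ := hπ t
  refine ⟨g.trans (z : (K × W × K) ≃ₗ[K] (K × W × K)).symm.toAddEquiv, σ, κ, ?_, ?_⟩
  · refine ⟨fun c v => ?_, hκ, fun u v => ?_⟩
    · change (z : (K × W × K) ≃ₗ[K] (K × W × K)).symm (g (c • v)) =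
        σ c • (z : (K × W × K) ≃ₗ[K] (K × W × K)).symm (g v)
      rw [hgS.sl, map_smul]
    · change hyp B ((z : (K × W × K) ≃ₗ[K] (K × W × K)).symm (g u))
        ((z : (K × W × K) ≃ₗ[K] (K × W × K)).symm (g v)) = _
      rw [← hgS.form, ← mem_SpG.mp z.2, LinearEquiv.apply_symm_apply, LinearEquiv.apply_symm_apply]
  · intro x y hxy
    have hxy' : ∀ v, g ((x : (K × W × K) ≃ₗ[K] (K × W × K)) v) =
        ((z * y * z⁻¹ : SpG (hyp B)) : (K × W × K) ≃ₗ[K] (K × W × K)) (g v) := by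
      intro v
      have h3 := hxy v
      change (z : (K × W × K) ≃ₗ[K] (K × W × K)).symm (g _) = (y : (K × W × K) ≃ₗ[K] (K × W × K))
        ((z : (K × W × K) ≃ₗ[K] (K × W × K)).symm (g v)) at h3
      rw [LinearEquiv.symm_apply_eq] at h3
      exact h3
    have h4 := step3 _ _ hxy'
    rw [hβ, MulAut.mul_apply, MulAut.conj_apply, map_mul, map_mul, map_inv] at h4
    have h5 := mul_right_cancel h4
    exact mul_left_cancel h5

end Aut

end Vale.Agent.P180.R2.H589.Sp
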