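import Vale.Agent.P180.R2.H589.Sp.Au4
import Vale.Agent.P180.R2.H589.Bt.SemL
import Vale.Agent.P180.R2.H589.Sp.Main

/-!
P180: automorphisms of quotients of `Sp(V)` by central subgroups: semilinear similitudes, the
derived series of the outer automorphism group.
-/

set_option linter.all false

namespace Vale.Agent.P180.R2.H589.Sp

open Subgroup Module
open LinearMap (BilinForm)
open Vale.Agent.P180.R2.H589.Sch

section Transport

variable {K V V' : Type*} [Field K] [AddCommGroup V] [Module K V] [AddCommGroup V'] [Module K V']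
  {B : BilinForm K V} {B' : BilinForm K V'} {e : V ≃ₗ[K] V'}

/-- transport along an isometry -/
def cjG (he : ∀ x y, B' (e x) (e y) = B x y) : SpG B ≃* SpG B' where
  toFun g := ⟨cj e (g : V ≃ₗ[K] V), (cj_mem he).mpr g.2⟩
  invFun g := ⟨(cj e).symm (g : V' ≃ₗ[K] V'), (cj_mem he).mp (by
    rw [MulEquiv.apply_symm_apply]; exact g.2)⟩
  left_inv g := Subtype.ext ((cj e).symm_apply_apply _)
  right_inv g := Subtype.ext ((cj e).apply_symm_apply _)
  map_mul' g h := Subtype.ext (map_mul (cj e) _ _)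

theorem cjG_apply (he : ∀ x y, B' (e x) (e y) = B x y) (g : SpG B) (v : V) :
    (cjG he g : V' ≃ₗ[K] V') (e v) = e ((g : V ≃ₗ[K] V) v) := by
  change cj e (g : V ≃ₗ[K] V) (e v) = _
  rw [cj_apply, e.symm_apply_apply]

end Transport

section Level

variable {K V : Type*} [Field K] [Finite K] [AddCommGroup V] [Module K V] [Module.Finite K V]
  {B : BilinForm K V} (hB : Sy B)

include hB

/-- **Every automorphism of `PSp(V)`**, `dim V ≥ 4`, odd characteristic, is induced by a semilinear
similitude. -/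
theorem exists_ssim (h2 : (2 : K) ≠ 0) (hd : 2 < finrank K V) {T : Type*} [Group T]
    {π : SpG B →* T} (hπ : Function.Surjective π) (hker : π.ker = center (SpG B)) (α : MulAut T) :
    ∃ (g : V ≃+ V) (σ : K ≃+* K) (κ : K), SSim B g σ κ ∧ IndS π α g := by
  haveI : Finite V := Module.finite_of_finite K
  haveI hp : Fact (ringChar K).Prime := ⟨CharP.char_is_prime K (ringChar K)⟩
  obtain ⟨o, ho⟩ : ∃ o : V, o ≠ 0 := by
    by_contra hcon
    push Not at hcon
    have h3 : Subsingleton V := ⟨fun x y => by rw [hcon x, hcon y]⟩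
    have h4 := Module.finrank_zero_of_subsingleton (R := K) (M := V)
    omega
  obtain ⟨o', h1⟩ := hB.exists_one ho
  have he := splitE_iso hB h1
  have hBW := BW_sy hB h1
  obtain ⟨e, hee⟩ : ∃ e, e = splitE hB h1 := ⟨_, rfl⟩
  rw [← hee] at he
  have hW : ∃ x : WW B o o', x ≠ 0 := by
    by_contra hcon
    push Not at hcon
    have h3 : Subsingleton (WW B o o') := ⟨fun x y => by rw [hcon x, hcon y]⟩
    have h4 := Module.finrank_zero_of_subsingleton (R := K) (M := WW B o o')
    have h5 := e.finrank_eq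
    rw [Module.finrank_prod, Module.finrank_prod, Module.finrank_self] at h5
    omega
  have hπ' : Function.Surjective (π.comp (cjG he).toMonoidHom) := hπ.comp (cjG he).surjective
  have hker' : (π.comp (cjG he).toMonoidHom).ker = center (SpG (hyp (BW B o o'))) := by
    ext x
    rw [MonoidHom.mem_ker]
    change π (cjG he x) = 1 ↔ _
    rw [← MonoidHom.mem_ker, hker, mem_center_iff, mem_center_iff]
    constructor
    · intro h y
      apply (cjG he).injective
      rw [map_mul, map_mul, h]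
    · intro h y
      obtain ⟨y, rfl⟩ := (cjG he).surjective y
      rw [← map_mul, ← map_mul, h]
  obtain ⟨g, σ, κ, hg, hind⟩ := exists_ssim_hyp hBW (ringChar K) h2 hW hker' hπ' α
  refine ⟨(e.symm.toAddEquiv.trans g).trans e.toAddEquiv, σ, κ, ⟨fun c v => ?_, hg.ne,
    fun u v => ?_⟩, fun x y hxy => ?_⟩
  · change e (g (e.symm (c • v))) = σ c • e (g (e.symm v))
    rw [map_smul, hg.sl, map_smul]
  · change B (e (g (e.symm u))) (e (g (e.symm v))) = _
    rw [he, hg.form, ← he, e.apply_symm_apply, e.apply_symm_apply]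
  · obtain ⟨x, rfl⟩ := (cjG he).surjective x
    obtain ⟨y, rfl⟩ := (cjG he).surjective y
    refine hind x y fun v => ?_
    have h3 := hxy (e v)
    change e (g (e.symm ((cjG he x : V ≃ₗ[K] V) (e v)))) =
      (cjG he y : V ≃ₗ[K] V) (e (g (e.symm (e v)))) at h3
    rw [cjG_apply, cjG_apply, e.symm_apply_apply, e.symm_apply_apply] at h3
    exact e.injective h3

omit [Module.Finite K V] [Finite K] in
omit hB in
/-- the quotient by the centre -/
theorem ker_center {L : Type*} [Group L] {π : SpG B →* L} (hperf : commutator (SpG B) = ⊤)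
    (hπ : Function.Surjective π) (hk : π.ker ≤ center (SpG B)) :
    ((QuotientGroup.mk' (center L)).comp π).ker = center (SpG B) := by
  ext x
  rw [MonoidHom.mem_ker]
  constructor
  · intro hx
    exact Bt.center_of_map hperf hk ((QuotientGroup.eq_one_iff (π x)).mp hx)
  · intro hx
    refine (QuotientGroup.eq_one_iff (π x)).mpr ?_
    rw [mem_center_iff]
    intro y
    obtain ⟨y, rfl⟩ := hπ y
    rw [← map_mul, ← map_mul, mem_center_iff.mp hx y]

end Level

section LevelL

variable {K : Type} [Field K] [Finite K] {V : Type} [AddCommGroup V] [Module K V]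
  [Module.Finite K V] {B : BilinForm K V} (hB : Sy B)

include hB

/-- **Automorphisms of quotients `L` of `Sp(V)` by central subgroups.** -/
theorem exists_ssim_L (hK : 3 < Nat.card K) (h2 : (2 : K) ≠ 0) (hd : 2 < finrank K V) {L : Type*}
    [Group L] {π : SpG B →* L} (hπ : Function.Surjective π) (hk : π.ker ≤ center (SpG B))
    (α : MulAut L) :
    ∃ (g : V ≃+ V) (σ : K ≃+* K) (κ : K), SSim B g σ κ ∧ IndS π α g := by
  have hperf := SpG_perfect' hK hB
  let πT : SpG B →* L ⧸ center L := (QuotientGroup.mk' (center L)).comp π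
  have hπT : Function.Surjective πT := (QuotientGroup.mk'_surjective _).comp hπ
  have hkT : πT.ker = center (SpG B) := ker_center hperf hπ hk
  have hcen : (center L).map α.toMonoidHom = center L := by
    ext t
    constructor
    · rintro ⟨z, hz, rfl⟩
      rw [mem_center_iff]
      intro y
      obtain ⟨y, rfl⟩ := α.surjective y
      change α y * α z = α z * α y
      rw [← map_mul, ← map_mul, mem_center_iff.mp hz y]
    · intro ht
      refine ⟨α.symm t, ?_, α.apply_symm_apply t⟩
      change α.symm t ∈ center L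
      rw [mem_center_iff]
      intro y
      apply α.injective
      rw [map_mul, map_mul, α.apply_symm_apply, mem_center_iff.mp ht]
  let αT : MulAut (L ⧸ center L) := QuotientGroup.congr (center L) (center L) α hcen
  obtain ⟨g, σ, κ, hg, hind⟩ := exists_ssim hB h2 hd hπT hkT αT
  refine ⟨g, σ, κ, hg, ?_⟩
  choose Y hY using fun x : SpG B => hg.exists_conj x
  have huniq : ∀ x y : SpG B, (∀ v, g ((x : V ≃ₗ[K] V) v) = (y : V ≃ₗ[K] V) (g v)) →
      Y x = y := by
    intro x y hxy
    apply Subtype.ext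
    apply LinearEquiv.ext
    intro w
    obtain ⟨v, rfl⟩ := g.surjective w
    rw [← hY, hxy]
  let f₁ : SpG B →* L := α.toMonoidHom.comp π
  let f₂ : SpG B →* L := π.comp
    { toFun := Y
      map_one' := huniq _ _ fun v => rfl
      map_mul' := fun x z => huniq _ _ fun v => by
        change g ((x : V ≃ₗ[K] V) ((z : V ≃ₗ[K] V) v)) = (Y x : V ≃ₗ[K] V) ((Y z : V ≃ₗ[K] V) (g v))
        rw [hY, hY] }
  have heq : f₁ = f₂ := by
    apply Bt.eq_of_central hperf
    intro x
    have h3 : αT (πT x) = πT (Y x) := hind x (Y x) (hY x)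
    exact QuotientGroup.eq.mp h3
  intro x y hxy
  rw [← huniq x y hxy]
  exact congrArg (fun f : SpG B →* L => f x) heq

end LevelL

section Calc

variable {K V : Type*} [Field K] [AddCommGroup V] [Module K V] {B : BilinForm K V}
  {L : Type*} [Group L] {π : SpG B →* L} {g h : V ≃+ V} {σ τ : K ≃+* K} {κ μ : K}
  {α β : MulAut L}

theorem SSim.mul (hg : SSim B g σ κ) (hh : SSim B h τ μ) :
    SSim B (h.trans g) (τ.trans σ) (κ * σ μ) := by
  refine ⟨fun c v => ?_, mul_ne_zero hg.ne ((map_ne_zero σ).mpr hh.ne), fun u v => ?_⟩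
  · change g (h (c • v)) = σ (τ c) • g (h v)
    rw [hh.sl, hg.sl]
  · change B (g (h u)) (g (h v)) = κ * σ μ * σ (τ (B u v))
    rw [hg.form, hh.form, map_mul, mul_assoc]

theorem SSim.inv (hg : SSim B g σ κ) : SSim B g.symm σ.symm (σ.symm κ⁻¹) := by
  refine ⟨fun c v => ?_, (map_ne_zero σ.symm).mpr (inv_ne_zero hg.ne), fun u v => ?_⟩
  · apply g.injective
    rw [g.apply_symm_apply, hg.sl, g.apply_symm_apply, σ.apply_symm_apply]
  · have h1 := hg.form (g.symm u) (g.symm v)
    rw [g.apply_symm_apply, g.apply_symm_apply] at h1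
    apply σ.injective
    rw [map_mul, σ.apply_symm_apply, σ.apply_symm_apply, h1, inv_mul_cancel_left₀ hg.ne]

theorem IndS.mul (hh : SSim B h τ μ) (h1 : IndS π α g) (h2 : IndS π β h) :
    IndS π (α * β) (h.trans g) := by
  intro x z hxz
  obtain ⟨y, hy⟩ := hh.exists_conj x
  rw [MulAut.mul_apply, h2 x y hy]
  refine h1 y z fun w => ?_
  obtain ⟨v, rfl⟩ := h.surjective w
  rw [← hy]
  exact hxz v

theorem IndS.inv (h1 : IndS π α g) : IndS π α⁻¹ g.symm := by
  intro x y hxy
  have h2 : α (π y) = π x := by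
    refine h1 y x fun v => ?_
    have h3 := hxy (g v)
    rw [g.symm_apply_apply] at h3
    rw [← h3, g.apply_symm_apply]
  rw [← h2, MulAut.inv_apply_self]

theorem IndS.inner (hπ : Function.Surjective π) {c : K} (hc : c ≠ 0)
    (hg : SSim B g (RingEquiv.refl K) (c ^ 2)) (h1 : IndS π α g) :
    α ∈ (MulAut.conj : L →* MulAut L).range := by
  let z₀ : V ≃ₗ[K] V :=
    LinearEquiv.ofBijective
      { toFun := fun v => c⁻¹ • g v
        map_add' := fun u v => by rw [map_add, smul_add]
        map_smul' := fun a v => by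
          rw [hg.sl, RingHom.id_apply, RingEquiv.refl_apply, smul_comm] }
      ⟨fun u v huv => g.injective (smul_right_injective V (inv_ne_zero hc) huv), fun w =>
        ⟨g.symm (c • w), by
          change c⁻¹ • g (g.symm (c • w)) = w
          rw [g.apply_symm_apply, smul_smul, inv_mul_cancel₀ hc, one_smul]⟩⟩
  have hz₀ : ∀ v, z₀ v = c⁻¹ • g v := fun v => rfl
  have hz : z₀ ∈ SpG B := by
    intro u v
    rw [hz₀, hz₀, map_smul, map_smul, LinearMap.smul_apply, hg.form, RingEquiv.refl_apply,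
      smul_eq_mul, smul_eq_mul]
    field_simp
  obtain ⟨z, hzz⟩ : ∃ z : SpG B, z = ⟨z₀, hz⟩ := ⟨_, rfl⟩
  refine ⟨π z, ?_⟩
  ext t
  obtain ⟨x, rfl⟩ := hπ t
  rw [MulAut.conj_apply, ← map_inv, ← map_mul, ← map_mul]
  symm
  refine h1 _ _ fun v => ?_
  have h3 : g v = c • z₀ v := by rw [hz₀, smul_smul, mul_inv_cancel₀ hc, one_smul]
  have h4 : ∀ v, (z : V ≃ₗ[K] V) v = z₀ v := fun v => by rw [hzz]
  change g ((x : V ≃ₗ[K] V) v) = (z : V ≃ₗ[K] V) ((x : V ≃ₗ[K] V)
    ((z : V ≃ₗ[K] V).symm (g v)))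
  rw [h3, map_smul, ← h4 v, LinearEquiv.symm_apply_apply, map_smul, map_smul, h4, hz₀, smul_smul,
    mul_inv_cancel₀ hc, one_smul]

omit [AddCommGroup V] [Module K V] in
/-- The automorphisms of a finite field commute. -/
theorem ringEquiv_comm [Finite K] (σ τ : K ≃+* K) (c : K) : σ (τ c) = τ (σ c) := by
  by_cases hc : c = 0
  · rw [hc, map_zero, map_zero, map_zero]
  obtain ⟨m, hm⟩ := MonoidHom.map_cyclic (Units.map (σ : K →* K))
  obtain ⟨n, hn⟩ := MonoidHom.map_cyclic (Units.map (τ : K →* K))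
  have h1 : ∀ u : Kˣ, σ (u : K) = ((u ^ m : Kˣ) : K) := fun u => congrArg Units.val (hm u)
  have h2 : ∀ u : Kˣ, τ (u : K) = ((u ^ n : Kˣ) : K) := fun u => congrArg Units.val (hn u)
  obtain ⟨u, rfl⟩ : ∃ u : Kˣ, (u : K) = c := ⟨Units.mk0 c hc, rfl⟩
  rw [h2, h1, h1, h2, ← zpow_mul, ← zpow_mul, mul_comm]

/-- the automorphisms induced by linear similitudes -/
def LinS (π : SpG B →* L) : Subgroup (MulAut L) where
  carrier := {α | ∃ (g : V ≃+ V) (κ : K), SSim B g (RingEquiv.refl K) κ ∧ IndS π α g}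
  one_mem' := by
    refine ⟨AddEquiv.refl V, 1, ⟨fun c v => rfl, one_ne_zero, fun u v => (one_mul _).symm⟩, ?_⟩
    intro x y hxy
    have h1 : x = y := Subtype.ext (LinearEquiv.ext hxy)
    rw [h1]
    rfl
  mul_mem' := by
    rintro α β ⟨g, κ, hg, h1⟩ ⟨h, μ, hh, h2⟩
    exact ⟨h.trans g, κ * μ, hg.mul hh, h1.mul hh h2⟩
  inv_mem' := by
    rintro α ⟨g, κ, hg, h1⟩
    exact ⟨g.symm, κ⁻¹, hg.inv, h1.inv⟩

open scoped commutatorElement in
/-- **The outer automorphism group is solvable.** -/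
theorem derived_le [Finite K] (hπ : Function.Surjective π)
    (H : ∀ α : MulAut L, ∃ (g : V ≃+ V) (σ : K ≃+* K) (κ : K), SSim B g σ κ ∧ IndS π α g) :
    derivedSeries (MulAut L) 2 ≤ (MulAut.conj : L →* MulAut L).range := by
  have d1 : derivedSeries (MulAut L) 1 ≤ LinS π := by
    rw [derivedSeries_succ, derivedSeries_zero, commutator_le]
    intro α _ β _
    obtain ⟨g, σ, κ, hg, h1⟩ := H α
    obtain ⟨h, τ, μ, hh, h2⟩ := H β
    have h3 := (hg.mul (hh.mul (hg.inv.mul hh.inv)))
    have h4 := h1.mul (hh.mul (hg.inv.mul hh.inv)) (h2.mul (hg.inv.mul hh.inv)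
      (h1.inv.mul hh.inv h2.inv))
    have h5 : (((τ.symm.trans σ.symm).trans τ).trans σ) = RingEquiv.refl K := by
      ext c
      change σ (τ (σ.symm (τ.symm c))) = c
      rw [ringEquiv_comm τ σ.symm, σ.apply_symm_apply, τ.apply_symm_apply]
    rw [h5] at h3
    have h6 : ⁅α, β⁆ = α * (β * (α⁻¹ * β⁻¹)) := by
      rw [commutatorElement_def]
      group
    rw [h6]
    exact ⟨_, _, h3, h4⟩
  rw [derivedSeries_succ, commutator_le]
  intro α hα β hβ
  obtain ⟨g, κ, hg, h1⟩ := d1 hα
  obtain ⟨h, μ, hh, h2⟩ := d1 hβ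
  have h3 := (hg.mul (hh.mul (hg.inv.mul hh.inv)))
  have h4 := h1.mul (hh.mul (hg.inv.mul hh.inv)) (h2.mul (hg.inv.mul hh.inv)
    (h1.inv.mul hh.inv h2.inv))
  have h6 : ⁅α, β⁆ = α * (β * (α⁻¹ * β⁻¹)) := by
    rw [commutatorElement_def]
    group
  rw [h6]
  have h7 : κ * (μ * (κ⁻¹ * μ⁻¹)) = (1 : K) ^ 2 := by
    have := hg.ne
    have := hh.ne
    field_simp
  refine IndS.inner hπ one_ne_zero ?_ h4
  rw [← h7]
  exact h3

end Calc

end Vale.Agent.P180.R2.H589.Sp
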