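import Vale.Agent.P180.R2.H589.Sp.Gen
import Vale.Agent.P180.R2.H589.Sp.Chr
import Vale.Agent.P180.R2.H589.Sch.Gen

/-!
P180: automorphisms of `PSp(V)`: transvection groups.
-/

set_option linter.all false

namespace Vale.Agent.P180.R2.H589.Sp

open Subgroup Module
open LinearMap (BilinForm)
open Vale.Agent.P180.R2.H589.Sch

section Lin

variable {K V : Type*} [Field K] [AddCommGroup V] [Module K V]

/-- Linear maps which stabilise the lines are scalars. -/
theorem scalar_of_lines {z : V →ₗ[K] V} (hz : ∀ v, ∃ c : K, z v = c • v) :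
    ∃ c : K, ∀ v, z v = c • v := by
  by_cases hV : ∃ v : V, v ≠ 0
  · obtain ⟨v, hv⟩ := hV
    obtain ⟨c, hc⟩ := hz v
    refine ⟨c, fun w => ?_⟩
    by_cases hw : ∃ k : K, w = k • v
    · obtain ⟨k, rfl⟩ := hw
      rw [map_smul, hc, smul_comm]
    · obtain ⟨d, hd⟩ := hz w
      obtain ⟨e, he⟩ := hz (v + w)
      rw [map_add, hc, hd] at he
      by_cases hde : d = e
      · rw [hd]
        have h1 : (c - e) • v = 0 := by
          rw [hde] at he
          have h2 : c • v + e • w - e • (v + w) = 0 := by rw [he, sub_self]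
          rw [← h2]
          module
        have h2 : c - e = 0 := (smul_eq_zero.mp h1).resolve_right hv
        rw [hde, sub_eq_zero.mp h2]
      · exfalso
        apply hw
        refine ⟨(d - e)⁻¹ * (e - c), ?_⟩
        have h1 : (d - e) • w = (e - c) • v := by
          have h2 : c • v + d • w - e • (v + w) = 0 := by rw [he, sub_self]
          have h3 : (d - e) • w - (e - c) • v = c • v + d • w - e • (v + w) := by module
          rw [h2] at h3
          exact sub_eq_zero.mp h3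
        rw [mul_smul, ← h1, smul_smul, inv_mul_cancel₀ (sub_ne_zero.mpr hde), one_smul]
  · push Not at hV
    exact ⟨0, fun v => by rw [hV v, hV (z 0), zero_smul]⟩

end Lin

section Basic

variable {K V : Type*} [Field K] [AddCommGroup V] [Module K V] {B : BilinForm K V} (hB : Sy B)

include hB

theorem tS_eq {v w : V} {c d : K} (hv : v ≠ 0) (hc : c ≠ 0) (h : tS hB v c = tS hB w d) :
    ∃ k : K, w = k • v := by
  obtain ⟨y, hy⟩ := hB.exists_one hv
  have h1 : B (-y) v = 1 := by rw [hB.neg, map_neg, neg_neg, hy]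
  have h2 := congrArg (fun e : V ≃ₗ[K] V => e (-y)) h
  simp only [tS_apply] at h2
  have h3 := add_left_cancel h2
  rw [h1, mul_one] at h3
  have h4 : d * B (-y) w ≠ 0 := by
    intro h5
    rw [h5, zero_smul] at h3
    exact (smul_ne_zero hc hv) h3
  refine ⟨(d * B (-y) w)⁻¹ * c, ?_⟩
  rw [mul_smul, h3, smul_smul, inv_mul_cancel₀ h4, one_smul]

theorem tS_comm_of {v w : V} (c d : K) (h : B v w = 0) :
    tS hB v c * tS hB w d = tS hB w d * tS hB v c := by
  rw [← mul_inv_eq_iff_eq_mul, tS_conj hB (tS_mem hB v c)]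
  congr 1
  rw [tS_apply, hB.neg v w, h, neg_zero, mul_zero, zero_smul, add_zero]

theorem orth_of_tS_comm {v w : V} {c d : K} (hw : w ≠ 0) (hc : c ≠ 0) (hd : d ≠ 0)
    (h : tS hB v c * tS hB w d = tS hB w d * tS hB v c) : B v w = 0 := by
  rw [← mul_inv_eq_iff_eq_mul, tS_conj hB (tS_mem hB v c)] at h
  obtain ⟨k, hk⟩ := tS_eq hB hw hd h.symm
  rw [tS_apply] at hk
  by_contra h0
  have h1 : B w v ≠ 0 := hB.swap_ne h0
  have h2 : (c * B w v) • v = (k - 1) • w := by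
    have h3 : (c * B w v) • v = (w + (c * B w v) • v) - w := by abel
    rw [h3, hk]
    module
  apply h0
  have h4 : v = ((c * B w v)⁻¹ * (k - 1)) • w := by
    rw [mul_smul, ← h2, smul_smul, inv_mul_cancel₀ (mul_ne_zero hc h1), one_smul]
  rw [h4, map_smul, LinearMap.smul_apply, hB.alt, smul_zero]

theorem scalar_of_center {z : SpG B} (hz : z ∈ center (SpG B)) :
    ∃ c : K, ∀ v, (z : V ≃ₗ[K] V) v = c • v := by
  refine scalar_of_lines (z := ((z : V ≃ₗ[K] V) : V →ₗ[K] V)) fun v => ?_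
  by_cases hv : v = 0
  · exact ⟨0, by rw [hv, map_zero, smul_zero]⟩
  have h1 := mem_center_iff.mp hz ⟨tS hB v 1, tS_mem hB v 1⟩
  have h2 : (z : V ≃ₗ[K] V) * tS hB v 1 * (z : V ≃ₗ[K] V)⁻¹ = tS hB v 1 := by
    rw [mul_inv_eq_iff_eq_mul]
    exact (congrArg Subtype.val h1).symm
  rw [tS_conj hB z.2] at h2
  exact tS_eq hB hv one_ne_zero h2.symm

omit hB in
theorem center_of_scalar {z : SpG B} {c : K} (hz : ∀ v, (z : V ≃ₗ[K] V) v = c • v) :
    z ∈ center (SpG B) := by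
  rw [mem_center_iff]
  intro y
  apply Subtype.ext
  apply LinearEquiv.ext
  intro v
  change (y : V ≃ₗ[K] V) ((z : V ≃ₗ[K] V) v) = (z : V ≃ₗ[K] V) ((y : V ≃ₗ[K] V) v)
  rw [hz, hz, map_smul]

theorem not_dvd_center {p : ℕ} [hp : Fact p.Prime] [CharP K p] [Finite V] :
    ¬ p ∣ Nat.card (center (SpG B)) := by
  intro hdv
  haveI : Finite (V ≃ₗ[K] V) := finite_gl
  obtain ⟨w, hw⟩ := exists_prime_orderOf_dvd_card' p hdv
  obtain ⟨c, hc⟩ := scalar_of_center hB w.2
  have h1 : w ^ p = 1 := by rw [← hw]; exact pow_orderOf_eq_one w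
  have h2 : ∀ (n : ℕ) (v : V), (((w : SpG B) : V ≃ₗ[K] V) ^ n) v = c ^ n • v := by
    intro n
    induction n with
    | zero => intro v; rw [pow_zero, pow_zero, one_smul]; rfl
    | succ n ih => intro v; rw [pow_succ', LinearEquiv.mul_apply, ih, map_smul, hc, smul_smul,
        pow_succ]
  have h3 : w = 1 := by
    apply Subtype.ext
    apply Subtype.ext
    apply LinearEquiv.ext
    intro v
    by_cases hv : v = 0
    · rw [hv, map_zero]; rfl
    have h4 : (((w : SpG B) : V ≃ₗ[K] V) ^ p) v = v := by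
      have h5 : ((w : SpG B) : V ≃ₗ[K] V) ^ p = 1 := by
        have h6 := congrArg (fun u : center (SpG B) => ((u : SpG B) : V ≃ₗ[K] V)) h1
        exact h6
      rw [h5]; rfl
    rw [h2] at h4
    have h5 : c ^ p = 1 := by
      have h6 : (c ^ p - 1) • v = 0 := by rw [sub_smul, one_smul, h4, sub_self]
      exact sub_eq_zero.mp ((smul_eq_zero.mp h6).resolve_right hv)
    have h6 : (c - 1) ^ p = 0 := by rw [sub_pow_char, h5, one_pow, sub_self]
    have h7 : c = 1 := sub_eq_zero.mp (pow_eq_zero_iff hp.out.ne_zero |>.mp h6)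
    rw [hc, h7, one_smul]
    rfl
  rw [h3, orderOf_one] at hw
  exact hp.out.one_lt.ne hw

end Basic

section T

variable {K V : Type*} [Field K] [AddCommGroup V] [Module K V] {B : BilinForm K V}

/-- the transvections as elements of the group -/
def tG (hB : Sy B) (v : V) (c : K) : SpG B := ⟨tS hB v c, tS_mem hB v c⟩

theorem tG_add (hB : Sy B) (v : V) (c d : K) : tG hB v c * tG hB v d = tG hB v (c + d) :=
  Subtype.ext (tS_add hB v c d)

theorem tG_zero (hB : Sy B) (v : V) : tG hB v 0 = 1 := Subtype.ext (tS_zero hB v)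

theorem tG_inv (hB : Sy B) (v : V) (c : K) : (tG hB v c)⁻¹ = tG hB v (-c) :=
  Subtype.ext (tS_inv hB v c)

theorem tG_smul (hB : Sy B) (v : V) (c k : K) : tG hB (k • v) c = tG hB v (k ^ 2 * c) :=
  Subtype.ext (tS_smul hB v c k)

theorem tG_conj (hB : Sy B) (g : SpG B) (v : V) (c : K) :
    g * tG hB v c * g⁻¹ = tG hB ((g : V ≃ₗ[K] V) v) c := Subtype.ext (tS_conj hB g.2 v c)

theorem tG_pel {p : ℕ} [CharP K p] (hB : Sy B) (v : V) (c : K) : Pel p (tG hB v c) := by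
  obtain ⟨n, hn⟩ := tS_pel (p := p) hB v c
  exact ⟨n, Subtype.ext hn⟩

variable {T : Type*} [Group T] (π : SpG B →* T)

/-- the transvection groups -/
def XT (hB : Sy B) (v : V) : Subgroup T where
  carrier := {t | ∃ c, t = π (tG hB v c)}
  one_mem' := ⟨0, by rw [tG_zero, map_one]⟩
  mul_mem' := by
    rintro _ _ ⟨c, rfl⟩ ⟨d, rfl⟩
    exact ⟨c + d, by rw [← map_mul, tG_add]⟩
  inv_mem' := by
    rintro _ ⟨c, rfl⟩
    exact ⟨-c, by rw [← map_inv, tG_inv]⟩

theorem mem_XT {hB : Sy B} {v : V} {t : T} : t ∈ XT π hB v ↔ ∃ c, t = π (tG hB v c) := Iff.rfl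

theorem tG_mem_XT (hB : Sy B) (v : V) (c : K) : π (tG hB v c) ∈ XT π hB v := ⟨c, rfl⟩

theorem XT_smul (hB : Sy B) {k : K} (hk : k ≠ 0) (v : V) : XT π hB (k • v) = XT π hB v := by
  ext t
  constructor
  · rintro ⟨c, rfl⟩
    exact ⟨k ^ 2 * c, by rw [tG_smul]⟩
  · rintro ⟨c, rfl⟩
    refine ⟨(k ^ 2)⁻¹ * c, ?_⟩
    rw [tG_smul, mul_inv_cancel_left₀ (pow_ne_zero 2 hk)]

theorem XT_conj (hB : Sy B) (g : SpG B) (v : V) {t : T} (ht : t ∈ XT π hB v) :
    π g * t * (π g)⁻¹ ∈ XT π hB ((g : V ≃ₗ[K] V) v) := by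
  obtain ⟨c, rfl⟩ := ht
  exact ⟨c, by rw [← tG_conj, map_mul, map_mul, map_inv]⟩

theorem XT_conj_iff (hB : Sy B) (g : SpG B) (v : V) {t : T} :
    π g * t * (π g)⁻¹ ∈ XT π hB ((g : V ≃ₗ[K] V) v) ↔ t ∈ XT π hB v := by
  refine ⟨fun h => ?_, XT_conj π hB g v⟩
  have h1 := XT_conj π hB g⁻¹ _ h
  have h2 : π g⁻¹ * (π g * t * (π g)⁻¹) * (π g⁻¹)⁻¹ = t := by rw [map_inv]; group
  rw [h2] at h1
  have h3 : ((g⁻¹ : SpG B) : V ≃ₗ[K] V) ((g : V ≃ₗ[K] V) v) = v :=
    (g : V ≃ₗ[K] V).symm_apply_apply v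
  rwa [h3] at h1

variable {π} (p : ℕ) [hp : Fact p.Prime] [CharP K p] [Finite V] (hB : Sy B)
  (hker : π.ker = center (SpG B))

include hB hker hp

theorem not_dvd_ker : ¬ p ∣ Nat.card π.ker := by
  rw [hker]
  exact not_dvd_center hB

/-- unique lifts of the `p`-elements -/
theorem pel_inj {x y : SpG B} (hx : Pel p x) (hy : Pel p y) (h : π x = π y) : x = y := by
  haveI : Finite (V ≃ₗ[K] V) := finite_gl
  exact pel_unique (f := π) hker.le (not_dvd_ker p hB hker) hx hy h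

theorem comm_of_pi {g r : SpG B} (hr : Pel p r) (h : π g * π r = π r * π g) :
    g * r * g⁻¹ = r := by
  refine pel_inj p hB hker (hr.conj g) hr ?_
  rw [map_mul, map_mul, map_inv, h, mul_inv_cancel_right]

theorem XT_eq {v w : V} (hv : v ≠ 0) (h : XT π hB v ≤ XT π hB w) : ∃ k : K, w = k • v := by
  obtain ⟨c, hc⟩ := h (tG_mem_XT π hB v 1)
  have h1 := pel_inj p hB hker (tG_pel hB v 1) (tG_pel hB w c) hc
  exact tS_eq hB hv one_ne_zero (congrArg Subtype.val h1)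

theorem orth_of_XT {v w : V} (hw : w ≠ 0)
    (h : ∀ x ∈ XT π hB v, ∀ y ∈ XT π hB w, x * y = y * x) : B v w = 0 := by
  have h1 := h _ (tG_mem_XT π hB v 1) _ (tG_mem_XT π hB w 1)
  have h2 := comm_of_pi p hB hker (tG_pel hB w 1) h1
  rw [mul_inv_eq_iff_eq_mul] at h2
  exact orth_of_tS_comm hB hw one_ne_zero one_ne_zero (congrArg Subtype.val h2)

omit hker hp [Finite V] [CharP K p] in
theorem XT_comm {v w : V} (h : B v w = 0) {x y : T} (hx : x ∈ XT π hB v) (hy : y ∈ XT π hB w) :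
    x * y = y * x := by
  obtain ⟨c, rfl⟩ := hx
  obtain ⟨d, rfl⟩ := hy
  rw [← map_mul, ← map_mul]
  congr 1
  exact Subtype.ext (tS_comm_of hB c d h)

theorem line_of_norm {g : SpG B} {v : V} (hv : v ≠ 0)
    (h : ∀ t ∈ XT π hB v, π g * t * (π g)⁻¹ ∈ XT π hB v) :
    ∃ k : K, (g : V ≃ₗ[K] V) v = k • v := by
  obtain ⟨c, hc⟩ := h _ (tG_mem_XT π hB v 1)
  rw [← map_inv, ← map_mul, ← map_mul, tG_conj] at hc
  have h1 := pel_inj p hB hker (tG_pel hB _ 1) (tG_pel hB v c) hc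
  have hgv : (g : V ≃ₗ[K] V) v ≠ 0 := fun h0 => hv ((g : V ≃ₗ[K] V).map_eq_zero_iff.mp h0)
  obtain ⟨k, hk⟩ := tS_eq hB hgv one_ne_zero (congrArg Subtype.val h1)
  have hk0 : k ≠ 0 := by
    rintro rfl
    rw [zero_smul] at hk
    exact hv hk
  refine ⟨k⁻¹, ?_⟩
  nth_rewrite 2 [hk]
  rw [smul_smul, inv_mul_cancel₀ hk0, one_smul]

omit hp [CharP K p] [Finite V] in
/-- Elements which stabilise all lines. -/
theorem eq_of_lines {x y : SpG B}
    (h : ∀ v : V, v ≠ 0 → ∃ k : K, (x : V ≃ₗ[K] V) v = k • (y : V ≃ₗ[K] V) v) : π x = π y := by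
  have h1 : ∃ c : K, ∀ v, ((y⁻¹ * x : SpG B) : V ≃ₗ[K] V) v = c • v := by
    refine scalar_of_lines (z := (((y⁻¹ * x : SpG B) : V ≃ₗ[K] V) : V →ₗ[K] V)) fun v => ?_
    by_cases hv : v = 0
    · exact ⟨0, by rw [hv, map_zero, smul_zero]⟩
    obtain ⟨k, hk⟩ := h v hv
    refine ⟨k, ?_⟩
    change (y : V ≃ₗ[K] V).symm ((x : V ≃ₗ[K] V) v) = k • v
    rw [hk, map_smul, LinearEquiv.symm_apply_apply]
  obtain ⟨c, hc⟩ := h1
  have h2 : y⁻¹ * x ∈ π.ker := by
    rw [hker]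
    exact center_of_scalar hc
  rw [MonoidHom.mem_ker, map_mul, map_inv, inv_mul_eq_one] at h2
  exact h2.symm

end T

end Vale.Agent.P180.R2.H589.Sp
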