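import Vale.Agent.P180.R2.H589.Sp.Au1
import Vale.Agent.P180.R2.H589.Bt.Loc
import Mathlib.GroupTheory.Sylow

/-!
P180: automorphisms of `PSp(V)`: the radical of the stabiliser of a line.
-/

set_option linter.all false

namespace Vale.Agent.P180.R2.H589.Sp

open Subgroup Module
open LinearMap (BilinForm)
open Vale.Agent.P180.R2.H589.Sch
open scoped Pointwise

variable {K W : Type*} [Field K] [AddCommGroup W] [Module K W] {B : BilinForm K W}

theorem qq_inj {y y' : W} {c c' : K} (h : qq B y c = qq B y' c') : y = y' ∧ c = c' := by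
  have h1 := congrArg (fun g : (K × W × K) ≃ₗ[K] (K × W × K) => g (0, 0, 1)) h
  change qq B y c (0, 0, 1) = qq B y' c' (0, 0, 1) at h1
  rw [qq_apply, qq_apply] at h1
  have h2 := congrArg Prod.fst h1
  have h3 := congrArg (fun u : K × W × K => u.2.1) h1
  simp only [map_zero, LinearMap.zero_apply, sub_zero, zero_add, one_smul, mul_one] at h2 h3
  exact ⟨h3, h2⟩

section Q

variable (hB : Sy B)

/-- elements of the radical -/
def qG (y : W) (c : K) : SpG (hyp B) := ⟨qq B y c, qq_mem hB y c⟩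

/-- Levi elements -/
def lG (m : SpG B) (l : Kˣ) : SpG (hyp B) := ⟨lv (m : W ≃ₗ[K] W) l, lv_mem hB m.2 l⟩

theorem qG_inj {y y' : W} {c c' : K} (h : qG hB y c = qG hB y' c') : y = y' ∧ c = c' :=
  qq_inj (congrArg Subtype.val h)

theorem qG_mul (y y' : W) (c c' : K) :
    qG hB y c * qG hB y' c' = qG hB (y + y') (c + c' - B y' y) := Subtype.ext (qq_mul y y' c c')

theorem qG_zero : qG hB 0 0 = 1 := Subtype.ext qq_zero

theorem qG_inv (y : W) (c : K) : (qG hB y c)⁻¹ = qG hB (-y) (-c) := Subtype.ext (qq_inv hB y c)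

theorem qG_tG (c : K) : qG hB 0 c = tG (hyp_sy hB) (oo K W) (-c) := Subtype.ext (qq_tS hB c)

theorem tG_qG (c : K) : tG (hyp_sy hB) (oo K W) c = qG hB 0 (-c) := by rw [qG_tG, neg_neg]

theorem qG_add (y : W) (c : K) : qG hB y c = qG hB y 0 * qG hB 0 c := by
  rw [qG_mul, map_zero, LinearMap.zero_apply, sub_zero, zero_add, add_zero]

theorem qG_conj (y₀ y : W) (c₀ c : K) :
    qG hB y₀ c₀ * qG hB y c * (qG hB y₀ c₀)⁻¹ = qG hB y (c + 2 * B y₀ y) := by
  rw [qG_inv, qG_mul, qG_mul]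
  congr 1
  · abel
  · rw [map_neg, LinearMap.neg_apply, map_add, hB.alt, hB.neg y₀ y]
    ring

theorem lG_qG (m : SpG B) (l : Kˣ) (y : W) (c : K) : lG hB m l * qG hB y c * (lG hB m l)⁻¹ =
    qG hB ((l : K) • (m : W ≃ₗ[K] W) y) ((l : K) ^ 2 * c) := Subtype.ext (lv_qq hB m.2 l y c)

theorem qG_pow (y : W) (c : K) (n : ℕ) : (qG hB y c) ^ n = qG hB ((n : K) • y) (n * c) := by
  induction n with
  | zero =>
    rw [pow_zero, Nat.cast_zero, zero_smul, zero_mul, qG_zero]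
  | succ n ih =>
    rw [pow_succ, ih, qG_mul]
    congr 1
    · rw [Nat.cast_succ]
      module
    · rw [map_smul, hB.alt, smul_zero, Nat.cast_succ]
      ring

theorem qG_pel {p : ℕ} [CharP K p] (y : W) (c : K) : Pel p (qG hB y c) := by
  refine ⟨1, ?_⟩
  rw [pow_one, qG_pow, CharP.cast_eq_zero, zero_smul, zero_mul, qG_zero]

/-- the decomposition of the stabiliser of the first line -/
theorem decomp {g : SpG (hyp B)} {k : K} (hg : (g : (K × W × K) ≃ₗ[K] (K × W × K)) (oo K W) =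
    k • oo K W) : ∃ (m : SpG B) (l : Kˣ) (y : W) (c : K), (l : K) = k ∧ g = lG hB m l * qG hB y c := by
  obtain ⟨y, c, h⟩ := exists_decomp hB (⟨g, g.2, k, hg⟩ : StS B)
  refine ⟨bl B ⟨g, g.2, k, hg⟩, lam B ⟨g, g.2, k, hg⟩, y, c, ?_, Subtype.ext h⟩
  rw [lam_val]
  change ((g : (K × W × K) ≃ₗ[K] (K × W × K)) (oo K W)).1 = k
  rw [hg]
  change k * 1 = k
  rw [mul_one]

variable {T : Type*} [Group T] (π : SpG (hyp B) →* T)

/-- the radical -/
def RT : Subgroup T where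
  carrier := {t | ∃ y c, t = π (qG hB y c)}
  one_mem' := ⟨0, 0, by rw [qG_zero, map_one]⟩
  mul_mem' := by
    rintro _ _ ⟨y, c, rfl⟩ ⟨y', c', rfl⟩
    exact ⟨_, _, by rw [← map_mul, qG_mul]⟩
  inv_mem' := by
    rintro _ ⟨y, c, rfl⟩
    exact ⟨_, _, by rw [← map_inv, qG_inv]⟩

theorem mem_RT {t : T} : t ∈ RT hB π ↔ ∃ y c, t = π (qG hB y c) := Iff.rfl

theorem qG_mem_RT (y : W) (c : K) : π (qG hB y c) ∈ RT hB π := ⟨y, c, rfl⟩

theorem XT_oo_le : XT π (hyp_sy hB) (oo K W) ≤ RT hB π := by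
  rintro _ ⟨c, rfl⟩
  exact ⟨0, -c, by rw [tG_qG]⟩

theorem isPGroup_RT (p : ℕ) [Fact p.Prime] [CharP K p] : IsPGroup p (RT hB π) := by
  rw [Bt.isPGroup_iff]
  rintro _ ⟨y, c, rfl⟩
  exact (qG_pel (p := p) hB y c).map π

variable {π} (p : ℕ) [hp : Fact p.Prime] [CharP K p] [Finite K] [Finite W] (h2 : (2 : K) ≠ 0)
  (hker : π.ker = center (SpG (hyp B)))

include hp hker h2

/-- The centraliser of the radical. -/
theorem cent_RT {g : SpG (hyp B)} (h : ∀ t ∈ RT hB π, π g * t = t * π g) :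
    π g ∈ XT π (hyp_sy hB) (oo K W) := by
  have hk : ∀ y c, g * qG hB y c * g⁻¹ = qG hB y c := fun y c =>
    comm_of_pi p (hyp_sy hB) hker (qG_pel (p := p) hB y c) (h _ (qG_mem_RT hB π y c))
  have h1 : ∃ k : K, (g : (K × W × K) ≃ₗ[K] (K × W × K)) (oo K W) = k • oo K W := by
    have h3 := hk 0 (-1)
    rw [qG_tG, tG_conj] at h3
    refine tS_eq (hyp_sy hB) oo_ne ?_ (congrArg Subtype.val h3.symm)
    rw [neg_neg]
    exact one_ne_zero
  obtain ⟨k, hgk⟩ := h1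
  obtain ⟨m, l, y₀, c₀, hl, rfl⟩ := decomp hB hgk
  have hk' : ∀ y c, (l : K) • (m : W ≃ₗ[K] W) y = y ∧ (l : K) ^ 2 * (c + 2 * B y₀ y) = c := by
    intro y c
    have h3 := hk y c
    have h4 : lG hB m l * qG hB y₀ c₀ * qG hB y c * (lG hB m l * qG hB y₀ c₀)⁻¹ =
      lG hB m l * (qG hB y₀ c₀ * qG hB y c * (qG hB y₀ c₀)⁻¹) * (lG hB m l)⁻¹ := by group
    rw [h4, qG_conj, lG_qG] at h3
    exact qG_inj hB h3
  have hl2 : (l : K) ^ 2 = 1 := by
    have h3 := (hk' 0 1).2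
    rwa [map_zero, mul_zero, add_zero, mul_one] at h3
  have hy₀ : y₀ = 0 := by
    apply hB.nd
    intro y
    have h3 := (hk' y 0).2
    rw [hl2, one_mul, zero_add] at h3
    exact (mul_eq_zero.mp h3).resolve_left h2
  have hll : ((l⁻¹ : Kˣ) : K) = l := by
    have h3 : (l : K) * ((l⁻¹ : Kˣ) : K) = 1 := Units.mul_inv l
    calc ((l⁻¹ : Kˣ) : K) = (l : K) ^ 2 * ((l⁻¹ : Kˣ) : K) := by rw [hl2, one_mul]
      _ = l * ((l : K) * ((l⁻¹ : Kˣ) : K)) := by ring
      _ = l := by rw [h3, mul_one]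
  have hm : ∀ y, (m : W ≃ₗ[K] W) y = (l : K) • y := by
    intro y
    have h3 := (hk' y 0).1
    have h4 : (l : K) • ((l : K) • (m : W ≃ₗ[K] W) y) = (l : K) • y := by rw [h3]
    rw [smul_smul, ← pow_two, hl2, one_smul] at h4
    exact h4
  have hlG : lG hB m l ∈ center (SpG (hyp B)) := by
    refine center_of_scalar (c := (l : K)) fun u => ?_
    change lv (m : W ≃ₗ[K] W) l u = (l : K) • u
    rw [lv_apply, hll, hm]
    rfl
  rw [← hker] at hlG
  rw [map_mul, MonoidHom.mem_ker.mp hlG, one_mul, hy₀, qG_tG]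
  exact tG_mem_XT π _ _ _

variable [Finite T] (hπ : Function.Surjective π)

include hπ

/-- **The centre of a Sylow subgroup which contains the radical.** -/
theorem center_sylow {S : Sylow p T} (hS : RT hB π ≤ S) :
    centralizer (S : Set T) ⊓ S = XT π (hyp_sy hB) (oo K W) := by
  have hV := hyp_sy hB
  haveI : Finite ((K × W × K) ≃ₗ[K] (K × W × K)) := finite_gl
  have h1 : centralizer (S : Set T) ⊓ S ≤ XT π (hyp_sy hB) (oo K W) := by
    rintro t ⟨ht, -⟩
    obtain ⟨g, rfl⟩ := hπ t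
    refine cent_RT hB p h2 hker fun s hs => ?_
    exact (mem_centralizer_iff.mp ht s (hS hs)).symm
  refine le_antisymm h1 ?_
  -- a nontrivial element of the centre
  have hX0 : ∃ t ∈ XT π (hyp_sy hB) (oo K W), t ≠ 1 := by
    refine ⟨π (tG hV (oo K W) 1), tG_mem_XT π _ _ _, fun h => ?_⟩
    have h3 := pel_inj p hV hker (tG_pel hV (oo K W) 1) pel_one (by rw [h, map_one])
    have h4 : tS hV (oo K W) 1 = tS hV 0 0 := by
      rw [tS_zero]
      exact congrArg Subtype.val h3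
    obtain ⟨k, hk⟩ := tS_eq hV oo_ne one_ne_zero h4
    have h5 := congrArg (fun e : (K × W × K) ≃ₗ[K] (K × W × K) => e (0, 0, 1)) h4
    simp only [tS_apply, smul_zero, add_zero] at h5
    have h6 := congrArg Prod.fst h5
    simp [hyp_apply, oo] at h6
  obtain ⟨t₀, ht₀, ht₀1⟩ := hX0
  haveI : Nontrivial S := ⟨⟨⟨t₀, hS (XT_oo_le hB π ht₀)⟩, 1, fun h => ht₀1 (congrArg Subtype.val h)⟩⟩
  haveI := (S.isPGroup').center_nontrivial
  obtain ⟨z, hz⟩ := exists_ne (1 : center S)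
  have hzS : ((z : S) : T) ∈ centralizer (S : Set T) ⊓ S := by
    refine ⟨mem_centralizer_iff.mpr ?_, (z : S).2⟩
    intro s hs
    exact congrArg Subtype.val (mem_center_iff.mp z.2 ⟨s, hs⟩)
  obtain ⟨c, hc⟩ := h1 hzS
  have hc0 : c ≠ 0 := by
    rintro rfl
    rw [tG_zero, map_one] at hc
    exact hz (Subtype.ext (Subtype.ext hc))
  rintro _ ⟨d, rfl⟩
  refine ⟨mem_centralizer_iff.mpr ?_, hS (XT_oo_le hB π (tG_mem_XT π _ _ _))⟩
  intro s hs
  obtain ⟨g, hg, rfl⟩ := exists_pel (p := p) (not_dvd_ker p hV hker)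
    (Bt.isPGroup_iff.mp S.isPGroup' s hs) (hπ s)
  have h3 : π g * π (tG hV (oo K W) c) = π (tG hV (oo K W) c) * π g := by
    rw [← hc]
    exact mem_centralizer_iff.mp hzS.1 _ hs
  have h4 := comm_of_pi p hV hker (tG_pel hV _ c) h3
  rw [tG_conj] at h4
  obtain ⟨k, hk⟩ := tS_eq hV oo_ne hc0 (congrArg Subtype.val h4.symm)
  rw [hk, tG_smul] at h4
  -- `k = 1`
  have h5 : k ^ 2 = 1 := by
    have h6 := congrArg (fun e : SpG (hyp B) => (e : (K × W × K) ≃ₗ[K] (K × W × K)) (0, 0, 1)) h4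
    change tS hV (oo K W) (k ^ 2 * c) (0, 0, 1) = tS hV (oo K W) c (0, 0, 1) at h6
    rw [tS_apply, tS_apply] at h6
    have h7 := congrArg Prod.fst h6
    simp [hyp_apply, oo] at h7
    refine mul_right_cancel₀ hc0 ?_
    rw [h7, one_mul]
  rw [← map_mul, ← map_mul]
  congr 1
  rw [← mul_inv_eq_iff_eq_mul, tG_conj, hk, tG_smul, h5, one_mul]

/-- After composition with an inner automorphism, an automorphism stabilises the first
transvection group. -/
theorem exists_fix_XT (α : MulAut T) : ∃ t : T, ∀ x, (MulAut.conj t * α) x ∈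
    XT π (hyp_sy hB) (oo K W) ↔ x ∈ XT π (hyp_sy hB) (oo K W) := by
  obtain ⟨S, hS⟩ := (isPGroup_RT hB π p).exists_le_sylow
  obtain ⟨t, ht⟩ := MulAction.exists_smul_eq T (α • S) S
  rw [Sylow.smul_def, smul_smul] at ht
  have h3 : ∀ x, (MulAut.conj t * α) x ∈ S ↔ x ∈ S := by
    intro x
    have h4 : (MulAut.conj t * α) • x ∈ ((MulAut.conj t * α) • (S : Subgroup T)) ↔
      x ∈ (S : Subgroup T) := smul_mem_pointwise_smul_iff
    rw [← Sylow.pointwise_smul_def, ht] at h4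
    exact h4
  obtain ⟨β, hβ⟩ : ∃ β : MulAut T, β = MulAut.conj t * α := ⟨_, rfl⟩
  rw [← hβ] at h3
  refine ⟨t, fun x => ?_⟩
  rw [← hβ, ← center_sylow hB p h2 hker hπ hS]
  have h5 : ∀ {β : MulAut T}, (∀ x, β x ∈ S ↔ x ∈ S) → ∀ x,
      x ∈ centralizer (S : Set T) ⊓ S → β x ∈ centralizer (S : Set T) ⊓ S := by
    rintro β h3 x ⟨hx1, hx2⟩
    refine ⟨mem_centralizer_iff.mpr fun s hs => ?_, (h3 x).mpr hx2⟩
    obtain ⟨s, rfl⟩ := β.surjective s
    rw [← map_mul, ← map_mul, mem_centralizer_iff.mp hx1 s ((h3 s).mp hs)]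
  constructor
  · intro h
    have h6 := h5 (β := β⁻¹) (fun y => by
      rw [← h3, MulAut.apply_inv_self]) _ h
    rwa [MulAut.inv_apply_self] at h6
  · exact h5 h3 x

end Q

section Op

theorem two_lt_card [Finite K] (h2 : (2 : K) ≠ 0) : 2 < Nat.card K := by
  haveI := Fintype.ofFinite K
  classical
  rw [Nat.card_eq_fintype_card]
  have h1 : ({0, 1, 2} : Finset K).card = 3 := by
    rw [Finset.card_insert_of_notMem, Finset.card_insert_of_notMem, Finset.card_singleton]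
    · rw [Finset.mem_singleton]
      intro h
      have h3 : (1 : K) + 1 = 1 + 0 := by rw [one_add_one_eq_two, add_zero, ← h]
      exact one_ne_zero (add_left_cancel h3)
    · rw [Finset.mem_insert, Finset.mem_singleton]
      rintro (h | h)
      · exact zero_ne_one h
      · exact h2 h.symm
  have h3 := Finset.card_le_univ ({0, 1, 2} : Finset K)
  omega

variable (hB : Sy B) {T : Type*} [Group T] {π : SpG (hyp B) →* T}
  (p : ℕ) [hp : Fact p.Prime] [CharP K p] [Finite K] [Finite W] (h2 : (2 : K) ≠ 0)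
  (hW : ∃ x : W, x ≠ 0) (hker : π.ker = center (SpG (hyp B)))

include hp hker h2 hW

/-- **The radical is the largest normal `p`-subgroup of the normaliser of the first transvection
group.** -/
theorem le_RT {Q : Subgroup T} (hQ : IsPGroup p Q)
    (h1 : ∀ t ∈ Q, ∀ x ∈ XT π (hyp_sy hB) (oo K W), t * x * t⁻¹ ∈ XT π (hyp_sy hB) (oo K W))
    (hn : ∀ t, (∀ x ∈ XT π (hyp_sy hB) (oo K W), t * x * t⁻¹ ∈ XT π (hyp_sy hB) (oo K W)) →
      ∀ q ∈ Q, t * q * t⁻¹ ∈ Q) : ∀ g : SpG (hyp B), π g ∈ Q → π g ∈ RT hB π := by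
  have hV := hyp_sy hB
  haveI : Finite ((K × W × K) ≃ₗ[K] (K × W × K)) := finite_gl
  let Y : Subgroup (SpG (hyp B)) :=
    { carrier := {g | Pel p g ∧ π g ∈ Q}
      one_mem' := ⟨pel_one, by rw [map_one]; exact Q.one_mem⟩
      mul_mem' := by
        rintro g h ⟨h1, h2⟩ ⟨h3, h4⟩
        refine ⟨pel_mul hker.le (not_dvd_ker p hV hker) hQ h1 h3 h2 h4, ?_⟩
        rw [map_mul]
        exact Q.mul_mem h2 h4
      inv_mem' := by
        rintro g ⟨h1, h2⟩
        refine ⟨h1.inv, ?_⟩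
        rw [map_inv]
        exact Q.inv_mem h2 }
  have hYp : IsPGroup p Y := Bt.isPGroup_iff.mpr fun x hx => hx.1
  have hYS : ∀ g ∈ Y, (g : (K × W × K) ≃ₗ[K] (K × W × K)) ∈ StS B := by
    intro g hg
    exact ⟨g.2, line_of_norm p hV hker oo_ne (h1 _ hg.2)⟩
  obtain ⟨x₀, hx₀, hfix⟩ := Bt.exists_fixed_gen hYp
    (fun (y : Y) (x : W) => blF ((y : SpG (hyp B)) : (K × W × K) ≃ₗ[K] (K × W × K)) x)
    (fun x => blF_one x) (fun y z x => blF_mul (hYS y y.2) (hYS z z.2) x)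
    (by
      obtain ⟨x, hx⟩ := hW
      rw [Module.natCard_eq_pow_finrank (K := K)]
      refine dvd_pow Bt.dvd_card_K ?_
      intro h0
      have h3 : Subsingleton W := Module.finrank_zero_iff.mp h0
      exact hx (Subsingleton.elim _ _)) (x₀ := (0 : W)) (fun y => map_zero _)
  have hbl : ∀ g ∈ Y, ∀ w : W, blF (g : (K × W × K) ≃ₗ[K] (K × W × K)) w = w := by
    intro g hg w
    by_cases hw : w = 0
    · rw [hw, map_zero]
    obtain ⟨m, hm, hmw⟩ := TG_trans hB (two_lt_card h2) hx₀ hw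
    have hm' := TG_le hB hm
    obtain ⟨a, ha⟩ : ∃ a : SpG (hyp B), a = lG hB ⟨m, hm'⟩ 1 := ⟨_, rfl⟩
    have haS : (a : (K × W × K) ≃ₗ[K] (K × W × K)) ∈ StS B := by
      rw [ha]
      exact lv_St hB hm' 1
    have haX : ∀ x ∈ XT π hV (oo K W), π a⁻¹ * x * (π a⁻¹)⁻¹ ∈ XT π hV (oo K W) := by
      intro x hx
      have h3 := XT_conj π hV a⁻¹ (oo K W) hx
      have h4 : ((a⁻¹ : SpG (hyp B)) : (K × W × K) ≃ₗ[K] (K × W × K)) (oo K W) = oo K W := by
        change (a : (K × W × K) ≃ₗ[K] (K × W × K)).symm (oo K W) = oo K W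
        rw [LinearEquiv.symm_apply_eq, ha]
        change oo K W = lv m 1 (oo K W)
        rw [lv_apply]
        refine Prod.ext ?_ (Prod.ext ?_ ?_)
        · change (1 : K) = ((1 : Kˣ) : K) * 1
          rw [Units.val_one, one_mul]
        · exact (map_zero m).symm
        · exact (mul_zero _).symm
      rwa [h4] at h3
    have hcj : a⁻¹ * g * a ∈ Y := by
      have h3 : a⁻¹ * g * a = a⁻¹ * g * a⁻¹⁻¹ := by rw [inv_inv]
      rw [h3]
      refine ⟨hg.1.conj _, ?_⟩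
      rw [map_mul, map_mul, map_inv π a⁻¹]
      exact hn _ haX _ hg.2
    have h3 := hfix ⟨_, hcj⟩
    change blF ((a⁻¹ * g * a : SpG (hyp B)) : (K × W × K) ≃ₗ[K] (K × W × K)) x₀ = x₀ at h3
    have h4 : (g : (K × W × K) ≃ₗ[K] (K × W × K)) * a =
        a * ((a⁻¹ * g * a : SpG (hyp B)) : (K × W × K) ≃ₗ[K] (K × W × K)) := by
      rw [← Subgroup.coe_mul, ← Subgroup.coe_mul]
      congr 1
      group
    have h5 := congrArg (fun e => blF e x₀) h4
    rw [blF_mul (hYS g hg) haS, blF_mul haS (hYS _ hcj), h3] at h5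
    have h6 : blF (a : (K × W × K) ≃ₗ[K] (K × W × K)) x₀ = w := by
      rw [ha, ← hmw]
      rfl
    rwa [h6] at h5
  intro g hg
  obtain ⟨y, hyp, hyg⟩ := exists_pel (p := p) (not_dvd_ker p hV hker)
    (Bt.isPGroup_iff.mp hQ _ hg) ⟨g, rfl⟩
  have hyY : y ∈ Y := ⟨hyp, by rw [hyg]; exact hg⟩
  have hyS := hYS y hyY
  have hlam : lamF (y : (K × W × K) ≃ₗ[K] (K × W × K)) = 1 := by
    obtain ⟨n, hn⟩ := hyp
    have h3 : ∀ i : ℕ, ((y : (K × W × K) ≃ₗ[K] (K × W × K)) ^ i) (oo K W) =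
        (lamF (y : (K × W × K) ≃ₗ[K] (K × W × K))) ^ i • oo K W := by
      intro i
      induction i with
      | zero => rw [pow_zero, pow_zero, one_smul]; rfl
      | succ i ih => rw [pow_succ', LinearEquiv.mul_apply, ih, map_smul, lamF_spec hyS, smul_smul,
          pow_succ]
    have h4 := h3 (p ^ n)
    have h5 : (y : (K × W × K) ≃ₗ[K] (K × W × K)) ^ p ^ n = 1 := by
      rw [← Subgroup.coe_pow, hn]; rfl
    rw [h5] at h4
    have h6 := congrArg Prod.fst h4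
    change (1 : K) = (lamF (y : (K × W × K) ≃ₗ[K] (K × W × K))) ^ p ^ n * 1 at h6
    rw [mul_one] at h6
    have h7 : (lamF (y : (K × W × K) ≃ₗ[K] (K × W × K)) - 1) ^ p ^ n = 0 := by
      rw [sub_pow_char_pow, ← h6, one_pow, sub_self]
    exact sub_eq_zero.mp (pow_eq_zero_iff (pow_ne_zero n hp.out.ne_zero) |>.mp h7)
  have h3 : bl B ⟨_, hyS⟩ = 1 := by
    apply Subtype.ext
    apply LinearEquiv.ext
    intro x
    exact hbl y hyY x
  have h4 : lam B ⟨_, hyS⟩ = 1 := Units.ext hlam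
  obtain ⟨z, c, h5⟩ := exists_qq hB h3 h4
  rw [← hyg]
  exact ⟨z, c, congrArg π (Subtype.ext h5)⟩

end Op

end Vale.Agent.P180.R2.H589.Sp
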