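import Vale.Agent.P180.R2.H589.Sp.Au2

/-!
P180: automorphisms of `PSp(V)`: the automorphisms of the radical.
-/

set_option linter.all false

namespace Vale.Agent.P180.R2.H589.Sp

open Subgroup Module
open LinearMap (BilinForm)
open Vale.Agent.P180.R2.H589.Sch

section Perp

variable {K V : Type*} [Field K] [AddCommGroup V] [Module K V] {B : BilinForm K V} (hB : Sy B)

include hB

/-- double orthogonal of a line -/
theorem exists_smul_of_perp {a b : V} (ha : a ≠ 0) (h : ∀ z, B z a = 0 → B z b = 0) :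
    ∃ k : K, b = k • a := by
  obtain ⟨y, hy⟩ := hB.exists_one ha
  have h1 : B (-y) a = 1 := by rw [hB.neg, map_neg, neg_neg, hy]
  refine ⟨B (-y) b, ?_⟩
  have h2 : b - B (-y) b • a = 0 := by
    apply hB.nd
    intro z
    have h3 : B (z - B z a • (-y)) a = 0 := by
      rw [map_sub, map_smul, LinearMap.sub_apply, LinearMap.smul_apply, h1, smul_eq_mul, mul_one,
        sub_self]
    have h4 := h _ h3
    rw [map_sub, map_smul, LinearMap.sub_apply, LinearMap.smul_apply, smul_eq_mul] at h4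
    rw [hB.neg z, map_sub, map_smul, smul_eq_mul]
    linear_combination -h4
  exact sub_eq_zero.mp h2

end Perp

variable {K W : Type*} [Field K] [AddCommGroup W] [Module K W] {B : BilinForm K W}

section Radical

variable (hB : Sy B) {T : Type*} [Group T] {π : SpG (hyp B) →* T}
  (p : ℕ) [hp : Fact p.Prime] [CharP K p] [Finite K] [Finite W] (h2 : (2 : K) ≠ 0)
  (hW : ∃ x : W, x ≠ 0) (hker : π.ker = center (SpG (hyp B))) (hπ : Function.Surjective π)

omit hp [CharP K p] [Finite K] [Finite W] in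
theorem RT_conj {g : SpG (hyp B)} {k : K}
    (hg : (g : (K × W × K) ≃ₗ[K] (K × W × K)) (oo K W) = k • oo K W) {t : T} (ht : t ∈ RT hB π) :
    π g * t * (π g)⁻¹ ∈ RT hB π := by
  obtain ⟨m, l, y₀, c₀, -, rfl⟩ := decomp hB hg
  obtain ⟨y, c, rfl⟩ := ht
  rw [← map_inv, ← map_mul, ← map_mul]
  have h4 : lG hB m l * qG hB y₀ c₀ * qG hB y c * (lG hB m l * qG hB y₀ c₀)⁻¹ =
    lG hB m l * (qG hB y₀ c₀ * qG hB y c * (qG hB y₀ c₀)⁻¹) * (lG hB m l)⁻¹ := by group
  rw [h4, qG_conj, lG_qG]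
  exact qG_mem_RT hB π _ _

theorem qG_oo (y : W) (c : K) :
    ((qG hB y c : SpG (hyp B)) : (K × W × K) ≃ₗ[K] (K × W × K)) (oo K W) = oo K W := by
  change qq B y c (oo K W) = oo K W
  rw [qq_apply]
  refine Prod.ext ?_ (Prod.ext ?_ rfl)
  · change (1 : K) - B 0 y + c * 0 = 1
    rw [map_zero, LinearMap.zero_apply]
    ring
  · change (0 : W) + (0 : K) • y = 0
    rw [zero_smul, zero_add]

include hp hker h2 hW hπ

theorem map_RT_le {β : MulAut T} (hβ : ∀ x, β x ∈ XT π (hyp_sy hB) (oo K W) ↔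
    x ∈ XT π (hyp_sy hB) (oo K W)) {x : T} (hx : x ∈ RT hB π) : β x ∈ RT hB π := by
  have hV := hyp_sy hB
  obtain ⟨Q, hQ⟩ : ∃ Q, Q = (RT hB π).map β.toMonoidHom := ⟨_, rfl⟩
  have hQp : IsPGroup p Q := by
    rw [hQ]
    exact (isPGroup_RT hB π p).map _
  have hnorm : ∀ {t : T}, t ∈ RT hB π → ∀ x ∈ XT π hV (oo K W), t * x * t⁻¹ ∈ XT π hV (oo K W) := by
    rintro _ ⟨y, c, rfl⟩ x hx
    have h3 := XT_conj π hV (qG hB y c) (oo K W) hx
    rwa [qG_oo] at h3
  obtain ⟨g, hg⟩ := hπ (β x)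
  rw [← hg]
  refine le_RT hB p h2 hW hker hQp ?_ ?_ g ?_
  · rw [hQ]
    rintro _ ⟨r, hr, rfl⟩ x hx
    obtain ⟨x, rfl⟩ := β.surjective x
    change β r * β x * (β r)⁻¹ ∈ _
    rw [← map_inv, ← map_mul, ← map_mul, hβ]
    exact hnorm hr x ((hβ x).mp hx)
  · intro t ht q hq
    rw [hQ] at hq ⊢
    obtain ⟨r, hr, rfl⟩ := hq
    obtain ⟨t, rfl⟩ := β.surjective t
    obtain ⟨g, rfl⟩ := hπ t
    have h3 : ∀ x ∈ XT π hV (oo K W), π g * x * (π g)⁻¹ ∈ XT π hV (oo K W) := by
      intro x hx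
      have h4 := ht (β x) ((hβ x).mpr hx)
      rw [← map_inv, ← map_mul, ← map_mul, hβ] at h4
      exact h4
    obtain ⟨k, hk⟩ := line_of_norm p hV hker oo_ne h3
    refine ⟨_, RT_conj hB hk hr, ?_⟩
    change β (π g * r * (π g)⁻¹) = β (π g) * β r * (β (π g))⁻¹
    rw [map_mul, map_mul, map_inv]
  · rw [hQ, hg]
    exact ⟨x, hx, rfl⟩

omit hW hπ in
theorem piq_inj {y y' : W} {c c' : K} (h : π (qG hB y c) = π (qG hB y' c')) :
    y = y' ∧ c = c' :=
  qG_inj hB (pel_inj p (hyp_sy hB) hker (qG_pel hB y c) (qG_pel hB y' c') h)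

/-- **Automorphisms which stabilise the first transvection group** act semilinearly on the
radical. -/
theorem exists_maps {β : MulAut T} (hβ : ∀ x, β x ∈ XT π (hyp_sy hB) (oo K W) ↔
    x ∈ XT π (hyp_sy hB) (oo K W)) :
    ∃ (s : W ≃+ W) (σ : K ≃+* K) (κ : K) (ν : W → K), κ ≠ 0 ∧
      (∀ (c : K) y, s (c • y) = σ c • s y) ∧
      (∀ y y', B (s y) (s y') = κ * σ (B y y')) ∧
      (∀ y y', ν (y + y') = ν y + ν y') ∧
      ∀ y c, β (π (qG hB y c)) = π (qG hB (s y) (ν y + κ * σ c)) := by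
  have hV := hyp_sy hB
  have hinj : ∀ {y y' : W} {c c' : K}, π (qG hB y c) = π (qG hB y' c') → y = y' ∧ c = c' :=
    fun h => piq_inj hB p h2 hker h
  have hR : ∀ x ∈ RT hB π, β x ∈ RT hB π := fun x hx => map_RT_le hB p h2 hW hker hπ hβ hx
  choose s ν hsν using fun y : W => hR _ (qG_mem_RT hB π y 0)
  have hX : ∀ c : K, ∃ d : K, β (π (qG hB 0 c)) = π (qG hB 0 d) := by
    intro c
    have h3 : β (π (qG hB 0 c)) ∈ XT π hV (oo K W) := by
      rw [hβ, qG_tG]
      exact tG_mem_XT π _ _ _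
    obtain ⟨d, hd⟩ := h3
    exact ⟨-d, by rw [hd, tG_qG hB]⟩
  choose τ hτ using hX
  have e1 : ∀ y c, β (π (qG hB y c)) = π (qG hB (s y) (ν y + τ c)) := by
    intro y c
    rw [qG_add, map_mul, map_mul, hsν, hτ, ← map_mul, qG_mul, map_zero, LinearMap.zero_apply,
      sub_zero, add_zero]
  -- multiplicativity
  have e2 : ∀ y y' c c', s (y + y') = s y + s y' ∧
      ν (y + y') + τ (c + c' - B y' y) = (ν y + τ c) + (ν y' + τ c') - B (s y') (s y) := by
    intro y y' c c'
    have h3 : β (π (qG hB y c * qG hB y' c')) = π (qG hB (s y) (ν y + τ c) *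
        qG hB (s y') (ν y' + τ c')) := by
      rw [map_mul, map_mul, e1, e1, map_mul]
    rw [qG_mul, qG_mul, e1] at h3
    exact hinj h3
  have hsadd : ∀ y y', s (y + y') = s y + s y' := fun y y' => (e2 y y' 0 0).1
  have hs0 : s 0 = 0 := by
    have := hsadd 0 0
    rw [add_zero] at this
    exact add_eq_left.mp this.symm
  have hν0 : ν 0 + τ 0 = 0 := by
    have h3 := e1 0 0
    rw [qG_zero, map_one, map_one, hs0, ← map_one π, ← qG_zero hB] at h3
    exact (hinj h3).2.symm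
  have hτadd : ∀ c c', τ (c + c') = τ c + τ c' := by
    intro c c'
    have h3 : β (π (qG hB 0 c * qG hB 0 c')) = π (qG hB 0 (τ c) * qG hB 0 (τ c')) := by
      rw [map_mul, map_mul, hτ, hτ, map_mul]
    rw [qG_mul, qG_mul, map_zero, sub_zero, sub_zero, add_zero, hτ] at h3
    exact (hinj h3).2
  have hτ0 : τ 0 = 0 := by
    have := hτadd 0 0
    rw [add_zero] at this
    exact add_eq_left.mp this.symm
  have hτneg : ∀ c, τ (-c) = - τ c := by
    intro c
    have h3 := hτadd (-c) c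
    rw [neg_add_cancel, hτ0] at h3
    exact eq_neg_of_add_eq_zero_left h3.symm
  have hform : ∀ y y', τ (B y y') = B (s y) (s y') := by
    intro y y'
    have h3 := (e2 y y' 0 0).2
    have h4 := (e2 y' y 0 0).2
    rw [add_comm y' y] at h4
    rw [add_zero, zero_sub, hB.neg y y', neg_neg, hτ0, add_zero, add_zero,
      hB.neg (s y) (s y')] at h3
    rw [add_zero, zero_sub, hτneg, hτ0, add_zero, add_zero] at h4
    have h5 : 2 * (τ (B y y') - B (s y) (s y')) = 0 := by linear_combination h3 - h4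
    exact sub_eq_zero.mp ((mul_eq_zero.mp h5).resolve_left h2)
  have hνadd : ∀ y y', ν (y + y') = ν y + ν y' := by
    intro y y'
    have h3 := (e2 y y' 0 0).2
    rw [add_zero, zero_sub, hB.neg y y', neg_neg, hτ0, add_zero, add_zero,
      hB.neg (s y) (s y'), hform] at h3
    linear_combination h3
  -- injectivity
  have hτinj : Function.Injective τ := by
    intro c d h
    have h3 : β (π (qG hB 0 c)) = β (π (qG hB 0 d)) := by rw [hτ, hτ, h]
    exact (hinj (β.injective h3)).2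
  have hsker : ∀ y, s y = 0 → y = 0 := by
    intro y hy
    have h3 : β (π (qG hB y 0)) ∈ XT π hV (oo K W) := by
      rw [e1, hy, qG_tG]
      exact tG_mem_XT π _ _ _
    rw [hβ] at h3
    obtain ⟨c, hc⟩ := h3
    rw [tG_qG hB] at hc
    exact (hinj hc).1
  let s' : W →+ W := { toFun := s, map_zero' := hs0, map_add' := hsadd }
  have hsinj : Function.Injective s' := (injective_iff_map_eq_zero s').mpr hsker
  have hsbij : Function.Bijective s' := Finite.injective_iff_bijective.mp hsinj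
  let S : W ≃+ W := AddEquiv.ofBijective s' hsbij
  have hS : ∀ y, S y = s y := fun y => rfl
  obtain ⟨κ, hκ⟩ : ∃ κ, κ = τ 1 := ⟨_, rfl⟩
  have hκ0 : κ ≠ 0 := by
    intro h
    rw [hκ, ← hτ0] at h
    exact one_ne_zero (hτinj h)
  -- semilinearity
  have hline : ∀ (c : K) (y : W), y ≠ 0 → ∃ k : K, s (c • y) = k • s y := by
    intro c y hy
    refine exists_smul_of_perp hB (fun h => hy (hsker y h)) ?_
    intro z hz
    obtain ⟨z, rfl⟩ := hsbij.2 z
    change B (s z) (s y) = 0 at hz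
    change B (s z) (s (c • y)) = 0
    rw [← hform, ← hτ0] at hz
    have h3 := hτinj hz
    rw [← hform, map_smul, h3, smul_zero, hτ0]
  have hsemi : ∀ (c : K) (y : W), s (c • y) = (κ⁻¹ * τ c) • s y := by
    intro c y
    by_cases hy : y = 0
    · rw [hy, smul_zero, hs0, smul_zero]
    obtain ⟨k, hk⟩ := hline c y hy
    obtain ⟨z, hz⟩ := hB.exists_one hy
    have h3 := hform (c • y) z
    rw [hk, map_smul, map_smul, LinearMap.smul_apply, LinearMap.smul_apply, ← hform, hz,
      smul_eq_mul, smul_eq_mul, mul_one, ← hκ] at h3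
    rw [hk, h3]
    congr 1
    field_simp
  obtain ⟨y₀, hy₀⟩ := hW
  have hsy₀ : s y₀ ≠ 0 := fun h => hy₀ (hsker y₀ h)
  let σ' : K →+* K :=
    { toFun := fun c => κ⁻¹ * τ c
      map_one' := by rw [← hκ, inv_mul_cancel₀ hκ0]
      map_mul' := by
        intro c d
        have h3 := hsemi (c * d) y₀
        rw [mul_smul, hsemi, hsemi, smul_smul] at h3
        exact (smul_left_injective K hsy₀ h3).symm
      map_zero' := by rw [hτ0, mul_zero]
      map_add' := by
        intro c d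
        rw [hτadd]
        ring }
  have hσinj : Function.Injective σ' := σ'.injective
  let σ : K ≃+* K := RingEquiv.ofBijective σ' (Finite.injective_iff_bijective.mp hσinj)
  have hσ : ∀ c, σ c = κ⁻¹ * τ c := fun c => rfl
  have hτσ : ∀ c, τ c = κ * σ c := by
    intro c
    rw [hσ, mul_inv_cancel_left₀ hκ0]
  refine ⟨S, σ, κ, ν, hκ0, ?_, ?_, hνadd, ?_⟩
  · intro c y
    rw [hS, hS, hσ]
    exact hsemi c y
  · intro y y'
    rw [hS, hS, ← hform, hτσ]
  · intro y c
    rw [e1, hτσ, hS]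

end Radical

end Vale.Agent.P180.R2.H589.Sp
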