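import Vale.Agent.P180.R2.H589.Sp.Gen
import Vale.Agent.P180.R2.H589.Sch.Sheets

/-!
P180: central extensions of symplectic groups by groups of order prime to the characteristic: the
lifts of the transvections give a trivial covering of the set of nonzero vectors.
-/

set_option linter.all false

namespace Vale.Agent.P180.R2.H589.Sp

open Subgroup Module
open LinearMap (BilinForm)
open Vale.Agent.P180.R2.H589.Sch

section Groups

variable {K V : Type*} [Field K] [AddCommGroup V] [Module K V] {B : BilinForm K V} (hB : Sy B)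

/-- elements of the radical of the stabiliser of `a` -/
def IsH (B : BilinForm K V) (e : V ≃ₗ[K] V) (a b : V) (c : K) : Prop :=
  B a b = 0 ∧ ∀ x, e x = x + B x a • b + B x b • a + (c * B x a) • a

/-- elements of the centre of the radical of the stabiliser of a totally isotropic plane -/
def IsQ (B : BilinForm K V) (e : V ≃ₗ[K] V) (a b : V) (α β γ : K) : Prop :=
  ∀ x, e x = x + (α * B x a + β * B x b) • a + (β * B x a + γ * B x b) • b

include hB

theorem IsH.mul {e e' : V ≃ₗ[K] V} {a b b' : V} {c c' : K} (h : IsH B e a b c)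
    (h' : IsH B e' a b' c') : IsH B (e * e') a (b + b') (c + c' + B b' b) := by
  obtain ⟨h0, h1⟩ := h
  obtain ⟨h0', h1'⟩ := h'
  refine ⟨by rw [map_add, h0, h0', add_zero], fun x => ?_⟩
  have e0 : B b' a = 0 := by rw [hB.neg, h0', neg_zero]
  have e1 : B (e' x) a = B x a := by
    rw [h1']
    simp only [map_add, map_smul, LinearMap.add_apply, LinearMap.smul_apply, smul_eq_mul, e0,
      hB.alt]
    ring
  have e2 : B (e' x) b = B x b + B x a * B b' b := by
    rw [h1']
    simp only [map_add, map_smul, LinearMap.add_apply, LinearMap.smul_apply, smul_eq_mul, h0]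
    ring
  rw [LinearEquiv.mul_apply, h1, e1, e2, h1', map_add]
  module

theorem IsH.inv {e : V ≃ₗ[K] V} {a b : V} {c : K} (h : IsH B e a b c) :
    IsH B e⁻¹ a (-b) (-c) := by
  obtain ⟨h0, h1⟩ := h
  refine ⟨by rw [map_neg, h0, neg_zero], fun x => ?_⟩
  apply e.injective
  have h2 : e (e⁻¹ x) = x := e.apply_symm_apply x
  have e0 : B b a = 0 := by rw [hB.neg, h0, neg_zero]
  rw [h2, h1]
  simp only [map_add, map_smul, map_neg, LinearMap.add_apply, LinearMap.smul_apply,
    LinearMap.neg_apply, smul_eq_mul, e0, h0, hB.alt]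
  module

theorem isH_one (a : V) : IsH B 1 a 0 0 := by
  refine ⟨map_zero _, fun x => ?_⟩
  rw [map_zero, zero_mul, zero_smul, smul_zero]
  simp

theorem IsH.conj {e : V ≃ₗ[K] V} {a b : V} {c : K} (h : IsH B e a b c) {g : V ≃ₗ[K] V}
    (hg : g ∈ SpG B) : IsH B (g * e * g⁻¹) (g a) (g b) c := by
  obtain ⟨h0, h1⟩ := h
  refine ⟨by rw [mem_SpG.mp hg, h0], fun x => ?_⟩
  obtain ⟨y, rfl⟩ := g.surjective x
  have h2 : g⁻¹ (g y) = y := g.symm_apply_apply y
  rw [LinearEquiv.mul_apply, LinearEquiv.mul_apply, h2, h1, mem_SpG.mp hg, mem_SpG.mp hg, map_add,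
    map_add, map_add, map_smul, map_smul, map_smul]

/-- the radical of the stabiliser of `a` -/
def RA (a : V) : Subgroup (V ≃ₗ[K] V) where
  carrier := {e | ∃ b c, IsH B e a b c}
  one_mem' := ⟨0, 0, isH_one hB a⟩
  mul_mem' := by
    rintro _ _ ⟨b, c, h⟩ ⟨b', c', h'⟩
    exact ⟨_, _, h.mul hB h'⟩
  inv_mem' := by
    rintro _ ⟨b, c, h⟩
    exact ⟨_, _, h.inv hB⟩

theorem mem_RA {a : V} {e : V ≃ₗ[K] V} : e ∈ RA hB a ↔ ∃ b c, IsH B e a b c := Iff.rfl

theorem isPGroup_RA (p : ℕ) [CharP K p] (a : V) : IsPGroup p (RA hB a) := by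
  rintro ⟨e, b, c, h⟩
  have h1 : ∀ n : ℕ, IsH B (e ^ n) a ((n : K) • b) ((n : K) * c) := by
    intro n
    induction n with
    | zero =>
      rw [pow_zero, Nat.cast_zero, zero_smul, zero_mul]
      exact isH_one hB a
    | succ n ih =>
      have h2 := ih.mul hB h
      rw [map_smul, hB.alt, smul_zero, add_zero] at h2
      rw [pow_succ, Nat.cast_succ, add_smul, one_smul, add_mul, one_mul]
      exact h2
  refine ⟨1, Subtype.ext ?_⟩
  have h2 := h1 p
  rw [CharP.cast_eq_zero K p, zero_smul, zero_mul] at h2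
  change e ^ p ^ 1 = 1
  rw [pow_one]
  apply LinearEquiv.ext
  intro x
  rw [h2.2, (isH_one hB a).2]

variable {a b : V} (hab : B a b = 0)

include hab

theorem IsQ.mul {e e' : V ≃ₗ[K] V} {α β γ α' β' γ' : K} (h : IsQ B e a b α β γ)
    (h' : IsQ B e' a b α' β' γ') : IsQ B (e * e') a b (α + α') (β + β') (γ + γ') := by
  intro x
  have hba : B b a = 0 := by rw [hB.neg, hab, neg_zero]
  have e1 : B (e' x) a = B x a := by
    rw [h' x]
    simp only [map_add, map_smul, LinearMap.add_apply, LinearMap.smul_apply, smul_eq_mul, hba,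
      hB.alt]
    ring
  have e2 : B (e' x) b = B x b := by
    rw [h' x]
    simp only [map_add, map_smul, LinearMap.add_apply, LinearMap.smul_apply, smul_eq_mul, hab,
      hB.alt]
    ring
  rw [LinearEquiv.mul_apply, h, e1, e2, h' x]
  module

theorem IsQ.inv {e : V ≃ₗ[K] V} {α β γ : K} (h : IsQ B e a b α β γ) :
    IsQ B e⁻¹ a b (-α) (-β) (-γ) := by
  intro x
  have hba : B b a = 0 := by rw [hB.neg, hab, neg_zero]
  apply e.injective
  have h2 : e (e⁻¹ x) = x := e.apply_symm_apply x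
  rw [h2, h]
  simp only [map_add, map_smul, LinearMap.add_apply, LinearMap.smul_apply, smul_eq_mul, hab, hba,
    hB.alt]
  module

omit hB hab in
theorem isQ_one (a b : V) : IsQ B 1 a b 0 0 0 := by
  intro x
  simp

/-- the group -/
def SQ (hab : B a b = 0) : Subgroup (V ≃ₗ[K] V) where
  carrier := {e | ∃ α β γ, IsQ B e a b α β γ}
  one_mem' := ⟨0, 0, 0, isQ_one a b⟩
  mul_mem' := by
    rintro _ _ ⟨α, β, γ, h⟩ ⟨α', β', γ', h'⟩
    exact ⟨_, _, _, h.mul hB hab h'⟩
  inv_mem' := by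
    rintro _ ⟨α, β, γ, h⟩
    exact ⟨_, _, _, h.inv hB hab⟩

theorem isPGroup_SQ (p : ℕ) [CharP K p] : IsPGroup p (SQ hB hab) := by
  rintro ⟨e, α, β, γ, h⟩
  have h1 : ∀ n : ℕ, IsQ B (e ^ n) a b (n * α) (n * β) (n * γ) := by
    intro n
    induction n with
    | zero =>
      rw [pow_zero, Nat.cast_zero, zero_mul, zero_mul, zero_mul]
      exact isQ_one a b
    | succ n ih =>
      have h2 := ih.mul hB hab h
      rw [pow_succ, Nat.cast_succ, add_mul, one_mul, add_mul, one_mul, add_mul, one_mul]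
      exact h2
  refine ⟨1, Subtype.ext ?_⟩
  have h2 := h1 p
  rw [CharP.cast_eq_zero K p, zero_mul, zero_mul, zero_mul] at h2
  change e ^ p ^ 1 = 1
  rw [pow_one]
  apply LinearEquiv.ext
  intro x
  rw [h2 x, isQ_one (B := B) a b x]

omit hab

/-- elements of the radical -/
def hE (a b : V) (c : K) (h : B a b = 0) : V ≃ₗ[K] V :=
  LinearEquiv.ofLinear
    (LinearMap.id + (LinearMap.flip B a).smulRight b + (LinearMap.flip B b).smulRight a +
      (c • LinearMap.flip B a).smulRight a)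
    (LinearMap.id - (LinearMap.flip B a).smulRight b - (LinearMap.flip B b).smulRight a -
      (c • LinearMap.flip B a).smulRight a)
    (by
      have hba : B b a = 0 := by rw [hB.neg, h, neg_zero]
      ext x
      simp only [LinearMap.comp_apply, LinearMap.add_apply, LinearMap.sub_apply,
        LinearMap.id_apply, LinearMap.smulRight_apply, LinearMap.flip_apply, LinearMap.smul_apply,
        map_sub, map_smul, smul_eq_mul, h, hba, hB.alt]
      module)
    (by
      have hba : B b a = 0 := by rw [hB.neg, h, neg_zero]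
      ext x
      simp only [LinearMap.comp_apply, LinearMap.add_apply, LinearMap.sub_apply,
        LinearMap.id_apply, LinearMap.smulRight_apply, LinearMap.flip_apply, LinearMap.smul_apply,
        map_add, map_smul, smul_eq_mul, h, hba, hB.alt]
      module)

theorem hE_isH {a b : V} {c : K} (h : B a b = 0) : IsH B (hE hB a b c h) a b c :=
  ⟨h, fun x => rfl⟩

theorem isH_mem {e : V ≃ₗ[K] V} {a b : V} {c : K} (h : IsH B e a b c) : e ∈ SpG B := by
  obtain ⟨h0, h1⟩ := h
  have hba : B b a = 0 := by rw [hB.neg, h0, neg_zero]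
  intro x y
  rw [h1, h1]
  simp only [map_add, map_smul, LinearMap.add_apply, LinearMap.smul_apply, smul_eq_mul, h0, hba,
    hB.alt]
  rw [hB.neg y a, hB.neg y b]
  ring

theorem linInd_of_B {v w : V} (h : B v w ≠ 0) : LinearIndependent K ![v, w] := by
  refine linInd_pair ?_ ?_
  · rintro rfl
    exact h (by rw [map_zero, LinearMap.zero_apply])
  · intro h1
    obtain ⟨c, rfl⟩ := Submodule.mem_span_singleton.mp h1
    exact h (by rw [map_smul, hB.alt, smul_zero])

end Groups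

section Sheets

variable {K V E : Type*} [Field K] [AddCommGroup V] [Module K V] [Group E]
  {B : BilinForm K V} (hB : Sy B) {f : E →* (V ≃ₗ[K] V)} {p : ℕ}

/-- Transport over a vector. -/
def RoS (B : BilinForm K V) (f : E →* (V ≃ₗ[K] V)) (p : ℕ) (w v : V) : Set E :=
  {t | ∃ y, B v y ≠ 0 ∧ B y w ≠ 0 ∧ ∃ s ∈ Co f p w y, ∃ s' ∈ Co f p y v, t = s * s'}

theorem roS_apply {t : E} {w v : V} (h : t ∈ RoS B f p w v) : f t v = w := by
  obtain ⟨y, _, _, s, hs, s', hs', rfl⟩ := h
  rw [map_mul, LinearEquiv.mul_apply, co_apply hs', co_apply hs]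

theorem roS_mul_right {t q : E} {w v : V} (h : t ∈ RoS B f p w v) (hq : q ∈ Pv f p v) :
    t * q ∈ RoS B f p w v := by
  obtain ⟨y, hy, hy', s, hs, s', hs', rfl⟩ := h
  exact ⟨y, hy, hy', s, hs, s' * q, co_mul_right hs' hq, by group⟩

include hB in
theorem roS_inv {t : E} {w v : V} (h : t ∈ RoS B f p w v) : t⁻¹ ∈ RoS B f p v w := by
  obtain ⟨y, hy, hy', s, hs, s', hs', rfl⟩ := h
  exact ⟨y, hB.swap_ne hy', hB.swap_ne hy, _, co_inv hs', _, co_inv hs, by group⟩

theorem roS_conj (hfB : ∀ e, f e ∈ SpG B) {t : E} {w v : V} (h : t ∈ RoS B f p w v) (e : E) :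
    e * t * e⁻¹ ∈ RoS B f p (f e w) (f e v) := by
  obtain ⟨y, hy, hy', s, hs, s', hs', rfl⟩ := h
  refine ⟨f e y, ?_, ?_, _, co_conj hs e, _, co_conj hs' e, by group⟩
  · rw [mem_SpG.mp (hfB e)]; exact hy
  · rw [mem_SpG.mp (hfB e)]; exact hy'

variable [Finite E] [Fact p.Prime] [CharP K p] (hk : f.ker ≤ center E)
  (hp : ¬ p ∣ Nat.card f.ker) (hr : ∀ g ∈ SpG B, ∃ y, f y = g)

include hB hk hp hr

/-- lifts of transvections -/
theorem exists_tvl {v w : V} (h : B v w ≠ 0) :
    ∃ u : E, IsT f p u w v ∧ f u = tS hB (w - v) (B v w)⁻¹ := by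
  obtain ⟨u, hu, hfu⟩ := exists_pel (f := f) (p := p) hp (tS_pel hB (w - v) (B v w)⁻¹)
    (hr _ (tS_mem hB _ _))
  refine ⟨u, ⟨hu, (B v w)⁻¹ • LinearMap.flip B (w - v), ?_, ?_⟩, hfu⟩
  · rw [LinearMap.smul_apply, LinearMap.flip_apply, map_sub, hB.alt, sub_zero, smul_eq_mul,
      inv_mul_cancel₀ h]
  · rw [hfu]
    exact tS_isTv hB _ _

theorem coS_nonempty {v w : V} (h : B v w ≠ 0) : ∃ t, t ∈ Co f p w v := by
  obtain ⟨u, hu, -⟩ := exists_tvl hB hk hp hr h
  exact ⟨u, u, hu, by rw [inv_mul_cancel]; exact Subgroup.one_mem _⟩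

/-- transport with elements of the radical of the stabiliser of `a` -/
theorem coS_of_isH {v w a : V} {c : K} (h : B v w ≠ 0) (hav : B v a = 1) (haw : B w a = 1)
    {r : E} (hr1 : Pel p r) (hr2 : IsH B (f r) a (w - v) c) (hr3 : f r v = w) :
    r ∈ Co f p w v := by
  obtain ⟨u, hu, hfu⟩ := exists_tvl hB hk hp hr h
  have hab : B a (w - v) = 0 := hr2.1
  refine ⟨u, hu, subset_closure ⟨?_, ?_⟩⟩
  · refine pel_mul hk hp (isPGroup_SQ hB hab p) hu.1.inv hr1 ?_ ?_
    · rw [map_inv]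
      refine Subgroup.inv_mem _ ⟨0, 0, (B v w)⁻¹, fun x => ?_⟩
      rw [hfu, tS_apply]
      module
    · refine ⟨c, 1, 0, fun x => ?_⟩
      rw [hr2.2]
      module
  · rw [map_mul, LinearEquiv.mul_apply, hr3]
    exact map_inv_eq hu.apply

theorem coS_tri [Module.Finite K V] {t t' : E} {v w z : V}
    (h : LinearIndependent K ![z, v, w]) (hvw : B v w ≠ 0) (hwz : B w z ≠ 0) (hvz : B v z ≠ 0)
    (ht : t ∈ Co f p z w) (ht' : t' ∈ Co f p w v) : t * t' ∈ Co f p z v := by
  obtain ⟨φ, hφ⟩ := exists_form h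
  obtain ⟨a, ha⟩ := hB.exists_dual φ
  have h0 : B z a = 1 := by rw [← ha]; simpa using hφ 0
  have h1 : B v a = 1 := by rw [← ha]; simpa using hφ 1
  have h2 : B w a = 1 := by rw [← ha]; simpa using hφ 2
  have ha1 : B a (w - v) = 0 := by rw [map_sub, hB.neg w a, hB.neg v a, h1, h2, sub_self]
  have ha2 : B a (z - w) = 0 := by rw [map_sub, hB.neg z a, hB.neg w a, h0, h2, sub_self]
  have hH1 := hE_isH hB (c := - B v w) ha1
  have hH2 := hE_isH hB (c := - B w z) ha2
  obtain ⟨r₁, hr₁, hfr₁⟩ := exists_pel (f := f) (p := p) hp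
    (g := hE hB a (w - v) (- B v w) ha1) (by
      obtain ⟨n, hn⟩ := isPGroup_RA hB p a ⟨_, _, _, hH1⟩
      exact ⟨n, congrArg Subtype.val hn⟩) (hr _ (isH_mem hB hH1))
  obtain ⟨r₂, hr₂, hfr₂⟩ := exists_pel (f := f) (p := p) hp
    (g := hE hB a (z - w) (- B w z) ha2) (by
      obtain ⟨n, hn⟩ := isPGroup_RA hB p a ⟨_, _, _, hH2⟩
      exact ⟨n, congrArg Subtype.val hn⟩) (hr _ (isH_mem hB hH2))
  rw [← hfr₁] at hH1
  rw [← hfr₂] at hH2
  have m1 : f r₁ v = w := by
    rw [hH1.2, h1, map_sub, hB.alt]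
    module
  have m2 : f r₂ w = z := by
    rw [hH2.2, h2, map_sub, hB.alt]
    module
  have hH3 := hH2.mul hB hH1
  rw [← map_mul] at hH3
  have e3 : z - w + (w - v) = z - v := by abel
  rw [e3] at hH3
  have m3 : f (r₂ * r₁) v = z := by rw [map_mul, LinearEquiv.mul_apply, m1, m2]
  have p3 : Pel p (r₂ * r₁) :=
    pel_mul hk hp (isPGroup_RA hB p a) hr₂ hr₁ ⟨_, _, hH2⟩ ⟨_, _, hH1⟩
  have c1 := coS_of_isH hB hk hp hr hvw h1 h2 hr₁ hH1 m1
  have c2 := coS_of_isH hB hk hp hr hwz h2 h0 hr₂ hH2 m2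
  have c3 := coS_of_isH hB hk hp hr hvz h1 h0 p3 hH3 m3
  -- compare with the products
  have q1 : r₁⁻¹ * t' ∈ Pv f p v := by
    obtain ⟨u, hu, hq⟩ := c1
    have h5 := co_spec hk hp ht' hu
    have : r₁⁻¹ * t' = (u⁻¹ * r₁)⁻¹ * (u⁻¹ * t') := by group
    rw [this]
    exact Subgroup.mul_mem _ (Subgroup.inv_mem _ hq) h5
  have q2 : r₂⁻¹ * t ∈ Pv f p w := by
    obtain ⟨u, hu, hq⟩ := c2
    have h5 := co_spec hk hp ht hu
    have : r₂⁻¹ * t = (u⁻¹ * r₂)⁻¹ * (u⁻¹ * t) := by group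
    rw [this]
    exact Subgroup.mul_mem _ (Subgroup.inv_mem _ hq) h5
  have q3 := pv_conj q2 r₁⁻¹
  rw [map_inv_eq m1] at q3
  have : t * t' = r₂ * r₁ * ((r₁⁻¹ * (r₂⁻¹ * t) * r₁⁻¹⁻¹) * (r₁⁻¹ * t')) := by group
  rw [this]
  exact co_mul_right c3 (Subgroup.mul_mem _ q3 q1)

end Sheets

section Generic

variable {K V : Type*} [Field K] [AddCommGroup V] [Module K V] [Module.Finite K V]

theorem exists_plane_form (h3 : 3 ≤ finrank K V) (v y : V) :
    ∃ φ : Dual K V, φ ≠ 0 ∧ ∀ x ∈ Submodule.span K ({v, y} : Set V), φ x = 0 := by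
  have h1 : Submodule.span K ({v, y} : Set V) < ⊤ := by
    rw [lt_top_iff_ne_top]
    intro h
    classical
    have h2 : finrank K (Submodule.span K ({v, y} : Set V)) ≤ 2 := by
      have h5 := finrank_span_finset_le_card (R := K) ({v, y} : Finset V)
      rw [Finset.coe_insert, Finset.coe_singleton] at h5
      exact h5.trans Finset.card_le_two
    rw [h, finrank_top] at h2
    omega
  obtain ⟨φ, h2, h4⟩ := Submodule.exists_le_ker_of_lt_top _ h1
  exact ⟨φ, h2, fun x hx => h4 hx⟩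

end Generic

end Vale.Agent.P180.R2.H589.Sp
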