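import Vale.Agent.P180.R2.H589.Sp.Sh

/-!
P180: central extensions of symplectic groups by groups of order prime to the characteristic: the
sheets of the covering of the set of nonzero vectors.
-/

set_option linter.all false

namespace Vale.Agent.P180.R2.H589.Sp

open Subgroup Module
open LinearMap (BilinForm)
open Vale.Agent.P180.R2.H589.Sch

variable {K V E : Type*} [Field K] [AddCommGroup V] [Module K V] [Group E]
  {B : BilinForm K V} (hB : Sy B) {f : E →* (V ≃ₗ[K] V)} {p : ℕ}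
  [Finite E] [Fact p.Prime] [CharP K p] (hk : f.ker ≤ center E)
  (hp : ¬ p ∣ Nat.card f.ker) (hr : ∀ g ∈ SpG B, ∃ y, f y = g)
  [Finite K] [Module.Finite K V] (h3 : 3 ≤ finrank K V) (hq : 8 < Nat.card K)

include hB hk hp hr h3 hq

theorem coS_change {v w y y' : V} (hvy : B v y ≠ 0) (hyw : B y w ≠ 0) (hvy' : B v y' ≠ 0)
    (hyw' : B y' w ≠ 0) {s s' : E} (hs : s ∈ Co f p w y) (hs' : s' ∈ Co f p y v) :
    ∃ r ∈ Co f p w y', ∃ r' ∈ Co f p y' v, s * s' = r * r' := by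
  have hv : v ≠ 0 := by
    rintro rfl
    exact hvy (by rw [map_zero, LinearMap.zero_apply])
  have hw : w ≠ 0 := by
    rintro rfl
    exact hyw (by rw [map_zero])
  have hy : y ≠ 0 := by
    rintro rfl
    exact hvy (by rw [map_zero])
  have hy' : y' ≠ 0 := by
    rintro rfl
    exact hvy' (by rw [map_zero])
  obtain ⟨φ₁, n₁, z₁⟩ := exists_plane_form h3 v y
  obtain ⟨φ₂, n₂, z₂⟩ := exists_plane_form h3 y w
  obtain ⟨φ₃, n₃, z₃⟩ := exists_plane_form h3 v y'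
  obtain ⟨φ₄, n₄, z₄⟩ := exists_plane_form h3 y' w
  obtain ⟨x, hx⟩ := exists_avoid' (K := K) (n := 8) hq
    ![B v, B w, B y, B y', φ₁, φ₂, φ₃, φ₄] (by
      intro i
      fin_cases i
      · exact hB.left_ne hv
      · exact hB.left_ne hw
      · exact hB.left_ne hy
      · exact hB.left_ne hy'
      · exact n₁
      · exact n₂
      · exact n₃
      · exact n₄)
  have x1 : B v x ≠ 0 := hx 0
  have x2 : B w x ≠ 0 := hx 1
  have x3 : B y x ≠ 0 := hx 2
  have x4 : B y' x ≠ 0 := hx 3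
  have x5 : x ∉ Submodule.span K ({v, y} : Set V) := fun h => hx 4 (z₁ x h)
  have x6 : x ∉ Submodule.span K ({y, w} : Set V) := fun h => hx 5 (z₂ x h)
  have x7 : x ∉ Submodule.span K ({v, y'} : Set V) := fun h => hx 6 (z₃ x h)
  have x8 : x ∉ Submodule.span K ({y', w} : Set V) := fun h => hx 7 (z₄ x h)
  -- triples
  have t1 : LinearIndependent K ![x, v, y] := linInd_triple (linInd_of_B hB hvy) x5
  have t2 : LinearIndependent K ![x, y, w] := linInd_triple (linInd_of_B hB hyw) x6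
  have t3 : LinearIndependent K ![x, v, y'] := linInd_triple (linInd_of_B hB hvy') x7
  have t4 : LinearIndependent K ![x, y', w] := linInd_triple (linInd_of_B hB hyw') x8
  obtain ⟨t, ht⟩ := coS_nonempty hB hk hp hr x1
  obtain ⟨r', hr'⟩ := coS_nonempty hB hk hp hr hvy'
  have c1 : s' * t⁻¹ ∈ Co f p y x :=
    coS_tri hB hk hp hr (linInd_rot (linInd_rot t1)) (hB.swap_ne x1) hvy (hB.swap_ne x3) hs'
      (co_inv ht)
  have c2 : s * (s' * t⁻¹) ∈ Co f p w x :=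
    coS_tri hB hk hp hr (linInd_rot (linInd_rot t2)) (hB.swap_ne x3) hyw (hB.swap_ne x2) hs c1
  have c3 : t * r'⁻¹ ∈ Co f p x y' :=
    coS_tri hB hk hp hr (linInd_swap3 (linInd_rot (linInd_rot t3))) (hB.swap_ne hvy') x1 x4 ht
      (co_inv hr')
  have c4 : s * (s' * t⁻¹) * (t * r'⁻¹) ∈ Co f p w y' :=
    coS_tri hB hk hp hr (linInd_swap3 (linInd_rot t4)) x4 (hB.swap_ne x2) hyw' c2 c3
  exact ⟨_, c4, r', hr', by group⟩

theorem roS_mul {v w z : V} (hv : v ≠ 0) (hw : w ≠ 0) (hz : z ≠ 0) {t t' : E}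
    (ht : t ∈ RoS B f p z w) (ht' : t' ∈ RoS B f p w v) : t * t' ∈ RoS B f p z v := by
  obtain ⟨y, hy⟩ := exists_avoid' (K := K) (n := 3) (by omega) ![B v, B w, B z] (by
    intro i
    fin_cases i
    · exact hB.left_ne hv
    · exact hB.left_ne hw
    · exact hB.left_ne hz)
  have y1 : B v y ≠ 0 := hy 0
  have y2 : B w y ≠ 0 := hy 1
  have y3 : B y z ≠ 0 := hB.swap_ne (hy 2)
  obtain ⟨y₁, hy₁, hy₁', s, hs, s', hs', rfl⟩ := ht
  obtain ⟨y₂, hy₂, hy₂', r, hr1, r', hr', rfl⟩ := ht'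
  obtain ⟨a, ha, a', ha', e1⟩ := coS_change hB hk hp hr h3 hq hy₁ hy₁' y2 y3 hs hs'
  obtain ⟨b, hb, b', hb', e2⟩ := coS_change hB hk hp hr h3 hq hy₂ hy₂' y1 (hB.swap_ne y2) hr1 hr'
  rw [e1, e2]
  refine ⟨y, y1, y3, a * (a' * b), co_mul_right ha (co_mul_inv hk hp ha' hb), b', hb', by group⟩

omit h3 in
theorem roS_nonempty {v w : V} (hv : v ≠ 0) (hw : w ≠ 0) : ∃ t, t ∈ RoS B f p w v := by
  obtain ⟨y, hy⟩ := exists_avoid' (K := K) (n := 2) (by omega) ![B v, B w] (by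
    intro i
    fin_cases i
    · exact hB.left_ne hv
    · exact hB.left_ne hw)
  have y1 : B v y ≠ 0 := hy 0
  have y2 : B y w ≠ 0 := hB.swap_ne (hy 1)
  obtain ⟨s, hs⟩ := coS_nonempty hB hk hp hr y2
  obtain ⟨s', hs'⟩ := coS_nonempty hB hk hp hr y1
  exact ⟨s * s', y, y1, y2, s, hs, s', hs', rfl⟩

omit hr h3 hq [Finite K] [Module.Finite K V] hB in
theorem roS_self {v : V} {t : E} (h : t ∈ RoS B f p v v) : t ∈ Pv f p v := by
  obtain ⟨y, _, _, s, hs, s', hs', rfl⟩ := h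
  exact co_mul_inv hk hp hs hs'

theorem roS_one {v : V} (hv : v ≠ 0) : (1 : E) ∈ RoS B f p v v := by
  obtain ⟨t, ht⟩ := roS_nonempty hB hk hp hr hq hv hv
  have := roS_mul hB hk hp hr h3 hq hv hv hv ht (roS_inv hB ht)
  rwa [mul_inv_cancel] at this

variable (hfB : ∀ e, f e ∈ SpG B)

include hfB

theorem exists_flatS {o : V} (ho : o ≠ 0) :
    ∃ F : Subgroup E, ∀ t, t ∈ F ↔ t ∈ RoS B f p (f t o) o := by
  have hne : ∀ e : E, f e o ≠ 0 := fun e h => ho ((f e).map_eq_zero_iff.mp h)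
  have h1 : (1 : E) ∈ RoS B f p (f 1 o) o := by
    rw [map_one]
    exact roS_one hB hk hp hr h3 hq ho
  have h2 : ∀ t t' : E, t ∈ RoS B f p (f t o) o → t' ∈ RoS B f p (f t' o) o →
      t * t' ∈ RoS B f p (f (t * t') o) o := by
    intro t t' ht ht'
    have h1 := roS_conj hfB ht' t
    rw [← LinearEquiv.mul_apply, ← map_mul] at h1
    have h2 := roS_mul hB hk hp hr h3 hq ho (hne t) (hne (t * t')) h1 ht
    rwa [inv_mul_cancel_right] at h2
  have h3 : ∀ t : E, t ∈ RoS B f p (f t o) o → t⁻¹ ∈ RoS B f p (f t⁻¹ o) o := by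
    intro t ht
    have h1 := roS_conj hfB (roS_inv hB ht) t⁻¹
    have h5 : f t⁻¹ (f t o) = o := map_inv_eq (f := f) (e := t) (v := o) (w := f t o) rfl
    rw [h5] at h1
    have h2 : t⁻¹ * t⁻¹ * t⁻¹⁻¹ = t⁻¹ := by rw [inv_inv, inv_mul_cancel_right]
    rwa [h2] at h1
  exact exists_subgroup_of (fun t => t ∈ RoS B f p (f t o) o) h1 h2 h3

/-- **The sheets.** -/
theorem sheetsS (hgen : closure {x : E | Pel p x} = ⊤) {o : V} (ho : o ≠ 0)
    (hst : ∀ x : E, f x o = o → ∃ q ∈ Pv f p o, ∃ a ∈ f.ker, x = q * a)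
    (hst2 : ∀ x ∈ Pv f p o, f x = 1 → x = 1) : f.ker = ⊥ := by
  have hne : ∀ e : E, f e o ≠ 0 := fun e h => ho ((f e).map_eq_zero_iff.mp h)
  obtain ⟨F, hF⟩ := exists_flatS hB hk hp hr h3 hq hfB ho
  have hFk : ∀ t ∈ F, f t = 1 → t = 1 := by
    intro t ht h1
    rw [hF, h1] at ht
    exact hst2 t (roS_self hk hp ht) h1
  have hFE : ∀ e : E, ∃ t ∈ F, ∃ a ∈ f.ker, e = t * a := by
    intro e
    obtain ⟨t, ht⟩ := roS_nonempty hB hk hp hr hq ho (hne e)
    have h1 : f (t⁻¹ * e) o = o := by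
      rw [map_mul, LinearEquiv.mul_apply]
      exact map_inv_eq (roS_apply ht)
    obtain ⟨q, hq, a, ha, h2⟩ := hst _ h1
    have h3 := roS_mul_right ht hq
    refine ⟨t * q, ?_, a, ha, ?_⟩
    · rw [hF, roS_apply h3]
      exact h3
    · rw [mul_assoc, ← h2, mul_inv_cancel_left]
  have hFtop : F = ⊤ := by
    rw [eq_top_iff, ← hgen, closure_le]
    rintro x ⟨n, hn⟩
    obtain ⟨t, ht, a, ha, rfl⟩ := hFE x
    have hc : Commute t a := mem_center_iff.mp (hk ha) t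
    rw [hc.mul_pow] at hn
    have h1 : t ^ p ^ n ∈ F := F.pow_mem ht _
    have h2 : t ^ p ^ n = (a ^ p ^ n)⁻¹ := eq_inv_of_mul_eq_one_left hn
    have h4 : t ^ p ^ n = 1 := by
      refine hFk _ h1 ?_
      rw [h2, map_inv, map_pow, MonoidHom.mem_ker.mp ha, one_pow, inv_one]
    have h5 : a = 1 := by
      refine eq_one_of_pel_of_mem hp ha ⟨n, ?_⟩
      rw [h4, one_mul] at hn
      exact hn
    rw [h5, mul_one]
    exact ht
  rw [eq_bot_iff]
  intro x hx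
  rw [mem_bot]
  exact hFk x (by rw [hFtop]; exact mem_top x) hx

end Vale.Agent.P180.R2.H589.Sp
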